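import Mathlib.GroupTheory.SpecificGroups.Cyclic
import Mathlib.GroupTheory.Perm.Cycle.Type

/-!
Elements of odd prime order in a group that is, modulo a normal subgroup `I`, an extension of a group
of order at most two by a cyclic group.
-/

set_option autoImplicit false

namespace Vale.Agent.P240.R2.H329

open Subgroup

/-- in a finite cyclic group, `g` is a power of `f` if `f ^ p = g ^ p = 1` and `f ≠ 1`, `p` prime -/
lemma mem_zpowers_of_pow {C : Type*} [Group C] [Finite C] [IsCyclic C] {p : ℕ} [hp : Fact p.Prime]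
    {f g : C} (hf : f ^ p = 1) (hf1 : f ≠ 1) (hg : g ^ p = 1) : g ∈ zpowers f := by
  have hy' : orderOf f = p := orderOf_eq_prime hf hf1
  have := Fintype.ofFinite C
  classical
  have h1 : (Finset.univ.filter fun z : C => z ∈ Subgroup.zpowers f) =
      Finset.univ.filter fun z : C => z ^ p = 1 := by
    apply Finset.eq_of_subset_of_card_le
    · intro z hz
      simp only [Finset.mem_filter, Finset.mem_univ, true_and] at hz ⊢
      obtain ⟨k, rfl⟩ := hz
      show (f ^ k) ^ p = 1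
      rw [← zpow_natCast, ← zpow_mul, mul_comm, zpow_mul, zpow_natCast, hf, one_zpow]
    · refine (IsCyclic.card_pow_eq_one_le hp.out.pos).trans ?_
      rw [← Fintype.card_subtype, ← Nat.card_eq_fintype_card]
      have : Nat.card (Subgroup.zpowers f) = p := by rw [Nat.card_zpowers, hy']
      exact this.symm.le
  have h2 : g ∈ Finset.univ.filter fun z : C => z ^ p = 1 := by simp [hg]
  rw [← h1] at h2
  simpa using h2

lemma eq_one_of_sq {B : Type*} [Group B] {p : ℕ} [hp : Fact p.Prime] (h2 : p ≠ 2) {x : B}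
    (h : x * x = 1) (hx : x ^ p = 1) : x = 1 := by
  obtain ⟨r, hr⟩ := hp.out.odd_of_ne_two h2
  rw [hr, pow_succ, pow_mul, pow_two, h, one_pow, one_mul] at hx
  exact hx

theorem mem_sup_of {A C : Type*} [Group A] [Group C] [Finite A] [IsCyclic C] (I : Subgroup A)
    [I.Normal] (R : Subgroup (A × C)) (hI : ∀ x ∈ I, (x, (1 : C)) ∈ R)
    (hR : ∀ f : A, ∃ σ : C, (f, σ) ∈ R)
    (h2 : ∀ x y : A, (x, (1 : C)) ∈ R → (y, (1 : C)) ∈ R → x ∉ I → y ∉ I → x * y ∈ I)
    {p : ℕ} [hp : Fact p.Prime] (hp2 : p ≠ 2) {f g : A} (hf : f ^ p = 1) (hg : g ^ p = 1)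
    (hfI : f ∉ I) : g ∈ zpowers f ⊔ I := by
  set D : Subgroup A := R.comap (MonoidHom.inl A C) with hD
  have memD : ∀ x, x ∈ D ↔ (x, (1 : C)) ∈ R := fun x => Iff.rfl
  have hDn : D.Normal := by
    constructor
    intro x hx f
    obtain ⟨σ, hσ⟩ := hR f
    rw [memD] at hx ⊢
    have := R.mul_mem (R.mul_mem hσ hx) (R.inv_mem hσ)
    simpa using this
  have hID : I ≤ D := fun x hx => hI x hx
  have hcyc : IsCyclic (A ⧸ D) := by
    obtain ⟨⟨v, hv⟩, hv'⟩ := IsCyclic.exists_generator (α := R.map (MonoidHom.snd A C))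
    obtain ⟨⟨f₀, φ⟩, h0, h1⟩ := hv
    have h1' : φ = v := h1
    subst h1'
    refine ⟨⟨QuotientGroup.mk f₀, fun x => ?_⟩⟩
    obtain ⟨f, rfl⟩ := QuotientGroup.mk_surjective x
    obtain ⟨σ, hσ⟩ := hR f
    obtain ⟨k, hk⟩ := hv' ⟨σ, ⟨(f, σ), hσ, rfl⟩⟩
    have hk' : φ ^ k = σ := by
      have := congrArg Subtype.val hk
      simpa using this
    refine ⟨k, ?_⟩
    show (QuotientGroup.mk f₀ : A ⧸ D) ^ k = QuotientGroup.mk f
    rw [← QuotientGroup.mk_zpow, QuotientGroup.eq, memD]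
    have := R.mul_mem (R.inv_mem (R.zpow_mem h0 k)) hσ
    simpa [hk'] using this
  have key : ∀ x : A, x ^ p = 1 → x ∉ I → x ∉ D := by
    intro x hx hxI hxD
    apply hxI
    have h3 := h2 x x hxD hxD hxI hxI
    have h4 : (QuotientGroup.mk x : A ⧸ I) = 1 := by
      refine eq_one_of_sq (p := p) hp2 ?_ ?_
      · rw [← QuotientGroup.mk_mul]
        exact (QuotientGroup.eq_one_iff _).2 h3
      · rw [← QuotientGroup.mk_pow, hx, QuotientGroup.mk_one]
    exact (QuotientGroup.eq_one_iff _).1 h4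
  have hfD := key f hf hfI
  have hm : (QuotientGroup.mk g : A ⧸ D) ∈ zpowers (QuotientGroup.mk f : A ⧸ D) := by
    refine mem_zpowers_of_pow (p := p) ?_ ?_ ?_
    · rw [← QuotientGroup.mk_pow, hf, QuotientGroup.mk_one]
    · exact fun h => hfD ((QuotientGroup.eq_one_iff _).1 h)
    · rw [← QuotientGroup.mk_pow, hg, QuotientGroup.mk_one]
  obtain ⟨k, hk⟩ := hm
  have hk' : (QuotientGroup.mk f : A ⧸ D) ^ k = QuotientGroup.mk g := hk
  rw [← QuotientGroup.mk_zpow, QuotientGroup.eq] at hk'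
  set d := (f ^ k)⁻¹ * g with hd
  have hgd : g = f ^ k * d := by rw [hd]; group
  have hdI : d ∈ I := by
    by_contra hdI
    apply hdI
    have h3 : d * d ∈ I := h2 d d hk' hk' hdI hdI
    have h5 : f * d * f⁻¹ ∉ I := fun h => hdI (by
      have := ‹I.Normal›.conj_mem _ h f⁻¹
      simpa [mul_assoc] using this)
    have h6 : f * d * f⁻¹ * d ∈ I := h2 _ d (hDn.conj_mem _ hk' f) hk' h5 hdI
    have e3 : (QuotientGroup.mk d : A ⧸ I) * QuotientGroup.mk d = 1 := by
      rw [← QuotientGroup.mk_mul]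
      exact (QuotientGroup.eq_one_iff _).2 h3
    have e6 : (QuotientGroup.mk f : A ⧸ I) * QuotientGroup.mk d * (QuotientGroup.mk f)⁻¹ *
        QuotientGroup.mk d = 1 := by
      rw [← QuotientGroup.mk_inv, ← QuotientGroup.mk_mul, ← QuotientGroup.mk_mul,
        ← QuotientGroup.mk_mul]
      exact (QuotientGroup.eq_one_iff _).2 h6
    have e7 : (QuotientGroup.mk f : A ⧸ I) * QuotientGroup.mk d =
        QuotientGroup.mk d * QuotientGroup.mk f := by
      have e8 : (QuotientGroup.mk f : A ⧸ I) * QuotientGroup.mk d * (QuotientGroup.mk f)⁻¹ =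
          QuotientGroup.mk d := by
        rw [mul_eq_one_iff_eq_inv] at e6 e3
        rw [e6]
        exact e3.symm
      exact mul_inv_eq_iff_eq_mul.1 e8
    refine (QuotientGroup.eq_one_iff _).1 (eq_one_of_sq (p := p) hp2 e3 ?_)
    have hc : Commute ((QuotientGroup.mk f : A ⧸ I) ^ k) (QuotientGroup.mk d) :=
      (show Commute (QuotientGroup.mk f : A ⧸ I) (QuotientGroup.mk d) from e7).zpow_left k
    have e9 : (QuotientGroup.mk g : A ⧸ I) = (QuotientGroup.mk f) ^ k * QuotientGroup.mk d := by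
      rw [← QuotientGroup.mk_zpow, ← QuotientGroup.mk_mul, ← hgd]
    have e10 : (QuotientGroup.mk g : A ⧸ I) ^ p = 1 := by
      rw [← QuotientGroup.mk_pow, hg, QuotientGroup.mk_one]
    rw [e9, hc.mul_pow, ← zpow_natCast, ← zpow_mul, mul_comm k, zpow_mul, zpow_natCast,
      ← QuotientGroup.mk_pow, hf, QuotientGroup.mk_one, one_zpow, one_mul] at e10
    exact e10
  rw [hgd]
  exact mul_mem (mem_sup_left ⟨k, rfl⟩) (mem_sup_right hdI)

end Vale.Agent.P240.R2.H329
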