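import Vale.Agent.P240.R2.H687.TA

/-!
The decomposition of the form `<1, .., 1, d>`, `d` a square, in dimension `8`.
-/

set_option autoImplicit false
set_option linter.all false

namespace Vale.Agent.P240.R2.H329

open Matrix Vale.Agent.P240.R2.H145.EO
open Vale.Agent.P240.R2.H401.D (fd)

universe u

theorem exists_bs {K : Type u} [Field K] [Fintype K] (h2 : (2 : K) ≠ 0) {d : K} (hd : d ≠ 0)
    (hsq : IsSquare d) {ε : K} (he : ε ≠ 0) : ∃ y : Fin 8 → Fin 8 → K,
      H687.T.Bs (fd 7 d) ε y ∧ y 4 = Pi.single 1 1 ∧ y 6 = Pi.single 3 1 := by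
  obtain ⟨b, hb⟩ := hsq
  have hb0 : b ≠ 0 := by
    rintro rfl
    exact hd (by rw [hb, mul_zero])
  obtain ⟨x1, x2, hx⟩ := rep (K := K) h2 (s := 1) (r := 1) one_ne_zero one_ne_zero (t := -1)
    (neg_ne_zero.2 one_ne_zero)
  obtain ⟨z1, z2, hz⟩ := rep (K := K) h2 (s := 1) (r := 1) one_ne_zero one_ne_zero (t := -ε)
    (neg_ne_zero.2 he)
  rw [one_mul, one_mul] at hx hz
  let y : Fin 8 → Fin 8 → K := ![![1, 0, 0, 0, 0, 0, 0, 0], ![0, 0, 0, 0, x1, x2, 0, 0],
    ![0, 0, 1, 0, 0, 0, 0, 0], ![0, 0, 0, 0, 0, 0, z1, z2 / b], ![0, 1, 0, 0, 0, 0, 0, 0],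
    ![0, 0, 0, 0, -x2, x1, 0, 0], ![0, 0, 0, 1, 0, 0, 0, 0], ![0, 0, 0, 0, 0, 0, -z2, z1 / b]]
  have hB : ∀ v w : Fin 8 → K, B (fd 7 d) v w = v 0 * w 0 + v 1 * w 1 + v 2 * w 2 + v 3 * w 3 +
      v 4 * w 4 + v 5 * w 5 + v 6 * w 6 + d * v 7 * w 7 := by
    intro v w
    unfold B fd
    rw [Fin.sum_univ_eight]
    have h7 : (7 : Fin 8) = Fin.last 7 := rfl
    have h : ∀ i : Fin 8, i ≠ 7 → ¬ (i = Fin.last 7) := fun i hi h => hi (h.trans h7.symm)
    rw [if_neg (h 0 (by decide)), if_neg (h 1 (by decide)), if_neg (h 2 (by decide)),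
      if_neg (h 3 (by decide)), if_neg (h 4 (by decide)), if_neg (h 5 (by decide)),
      if_neg (h 6 (by decide)), if_pos h7]
    ring
  refine ⟨y, ⟨?_, h2, he⟩, ?_, ?_⟩
  · intro i j
    rw [hB]
    have e3 : z1 * z1 + d * (z2 / b) * (z2 / b) = -ε := by
      rw [hb]
      field_simp
      linear_combination hz
    have e7 : z2 * z2 + d * (z1 / b) * (z1 / b) = -ε := by
      rw [hb]
      field_simp
      linear_combination hz
    have e37 : d * (z2 / b) * (z1 / b) = z1 * z2 := by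
      rw [hb]
      field_simp
    fin_cases i <;> fin_cases j <;> simp [y, H687.T.nn] <;>
      first
        | linear_combination hx
        | linear_combination e3
        | linear_combination e7
        | linear_combination e37
        | ring
  · funext i
    fin_cases i <;> simp [y, Pi.single_apply]
  · funext i
    fin_cases i <;> simp [y, Pi.single_apply]

end Vale.Agent.P240.R2.H329
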