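import Vale.Agent.P240.R2.H329.Abs

/-!
Elements of odd prime order modulo a normal subgroup: descent along a chain of subgroups of index at
most two.
-/

set_option autoImplicit false

namespace Vale.Agent.P240.R2.H329

open Subgroup

section

variable {A : Type*} [Group A] (I J : Subgroup A)

lemma mem_of_two (h : ∀ x ∈ J, ∀ y ∈ J, x ∉ I → y ∉ I → x * y ∈ I) [I.Normal] {p : ℕ}
    [hp : Fact p.Prime] (hp2 : p ≠ 2) {x : A} (hx : x ^ p = 1) (hxJ : x ∈ J) : x ∈ I := by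
  by_contra hxI
  apply hxI
  refine (QuotientGroup.eq_one_iff _).1 (eq_one_of_sq (p := p) hp2 ?_ ?_)
  · rw [← QuotientGroup.mk_mul]
    exact (QuotientGroup.eq_one_iff _).2 (h x hxJ x hxJ hxI hxI)
  · rw [← QuotientGroup.mk_pow, hx, QuotientGroup.mk_one]

theorem step_two [I.Normal] [J.Normal] (h : ∀ x ∈ J, ∀ y ∈ J, x ∉ I → y ∉ I → x * y ∈ I) {p : ℕ}
    [hp : Fact p.Prime] (hp2 : p ≠ 2) {f g : A} (hf : f ^ p = 1) (hg : g ^ p = 1)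
    (hgJ : g ∈ zpowers f ⊔ J) : g ∈ zpowers f ⊔ I := by
  obtain ⟨_, ⟨k, rfl⟩, d, hd, rfl⟩ := Subgroup.mem_sup_of_normal_right.1 hgJ
  have hdI : d ∈ I := by
    by_contra hdI
    apply hdI
    have h3 : d * d ∈ I := h d hd d hd hdI hdI
    have h5 : f * d * f⁻¹ ∉ I := fun h => hdI (by
      have := ‹I.Normal›.conj_mem _ h f⁻¹
      simpa [mul_assoc] using this)
    have h6 : f * d * f⁻¹ * d ∈ I := h _ (‹J.Normal›.conj_mem _ hd f) d hd h5 hdI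
    have e3 : (QuotientGroup.mk d : A ⧸ I) * QuotientGroup.mk d = 1 := by
      rw [← QuotientGroup.mk_mul]
      exact (QuotientGroup.eq_one_iff _).2 h3
    have e6 : (QuotientGroup.mk f : A ⧸ I) * QuotientGroup.mk d * (QuotientGroup.mk f)⁻¹ *
        QuotientGroup.mk d = 1 := by
      rw [← QuotientGroup.mk_inv, ← QuotientGroup.mk_mul, ← QuotientGroup.mk_mul,
        ← QuotientGroup.mk_mul]
      exact (QuotientGroup.eq_one_iff _).2 h6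
    have e7 : (QuotientGroup.mk f : A ⧸ I) * QuotientGroup.mk d =
        QuotientGroup.mk d * QuotientGroup.mk f := by
      have e8 : (QuotientGroup.mk f : A ⧸ I) * QuotientGroup.mk d * (QuotientGroup.mk f)⁻¹ =
          QuotientGroup.mk d := by
        rw [mul_eq_one_iff_eq_inv] at e6 e3
        rw [e6]
        exact e3.symm
      exact mul_inv_eq_iff_eq_mul.1 e8
    refine (QuotientGroup.eq_one_iff _).1 (eq_one_of_sq (p := p) hp2 e3 ?_)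
    have hc : Commute ((QuotientGroup.mk f : A ⧸ I) ^ k) (QuotientGroup.mk d) :=
      (show Commute (QuotientGroup.mk f : A ⧸ I) (QuotientGroup.mk d) from e7).zpow_left k
    have e10 : (QuotientGroup.mk (f ^ k * d) : A ⧸ I) ^ p = 1 := by
      rw [← QuotientGroup.mk_pow]
      exact (QuotientGroup.eq_one_iff _).2 (by rw [show (f ^ k * d) ^ p = 1 from hg]; exact one_mem _)
    rw [QuotientGroup.mk_mul, QuotientGroup.mk_zpow, hc.mul_pow, ← zpow_natCast, ← zpow_mul,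
      mul_comm k, zpow_mul, zpow_natCast, ← QuotientGroup.mk_pow, hf, QuotientGroup.mk_one, one_zpow,
      one_mul] at e10
    exact e10
  exact mul_mem (mem_sup_left ⟨k, rfl⟩) (mem_sup_right hdI)

end

/-- the chain `I ≤ J1 ≤ J2 ≤ {x | (x, 1) ∈ R}`, all indices at most two -/
theorem mem_sup_chain {A C : Type*} [Group A] [Group C] [Finite A] [IsCyclic C]
    (I J1 J2 : Subgroup A) (R : Subgroup (A × C)) (hJ2 : ∀ x ∈ J2, (x, (1 : C)) ∈ R)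
    (nI : ∀ z ∈ R, ∀ x ∈ I, z.1 * x * z.1⁻¹ ∈ I) (n1 : ∀ z ∈ R, ∀ x ∈ J1, z.1 * x * z.1⁻¹ ∈ J1)
    (n2 : ∀ z ∈ R, ∀ x ∈ J2, z.1 * x * z.1⁻¹ ∈ J2)
    (h3 : ∀ x y : A, (x, (1 : C)) ∈ R → (y, (1 : C)) ∈ R → x ∉ J2 → y ∉ J2 → x * y ∈ J2)
    (h2 : ∀ x ∈ J2, ∀ y ∈ J2, x ∉ J1 → y ∉ J1 → x * y ∈ J1)
    (h1 : ∀ x ∈ J1, ∀ y ∈ J1, x ∉ I → y ∉ I → x * y ∈ I)
    {p : ℕ} [hp : Fact p.Prime] (hp2 : p ≠ 2) {f g : A} (hfR : ∃ σ, (f, σ) ∈ R)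
    (hgR : ∃ σ, (g, σ) ∈ R) (hf : f ^ p = 1) (hg : g ^ p = 1) (hfI : f ∉ I) :
    g ∈ zpowers f ⊔ I := by
  set A₀ : Subgroup A := R.map (MonoidHom.fst A C) with hA₀
  have memA : ∀ x, x ∈ A₀ ↔ ∃ σ, (x, σ) ∈ R := by
    intro x
    constructor
    · rintro ⟨⟨y, σ⟩, hy, rfl⟩
      exact ⟨σ, hy⟩
    · rintro ⟨σ, hσ⟩
      exact ⟨(x, σ), hσ, rfl⟩
  let R₀ : Subgroup (A₀ × C) := R.comap (A₀.subtype.prodMap (MonoidHom.id C))
  have memR : ∀ (x : A₀) (σ : C), (x, σ) ∈ R₀ ↔ (x.1, σ) ∈ R := fun _ _ => Iff.rfl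
  have hn : ∀ (H : Subgroup A), (∀ z ∈ R, ∀ x ∈ H, z.1 * x * z.1⁻¹ ∈ H) →
      (H.subgroupOf A₀).Normal := by
    intro H hH
    constructor
    intro x hx g
    obtain ⟨σ, hσ⟩ := (memA _).1 g.2
    exact hH _ hσ _ hx
  have hN0 := hn I nI
  have hN1 := hn J1 n1
  have hN2 := hn J2 n2
  let f₀ : A₀ := ⟨f, (memA f).2 hfR⟩
  let g₀ : A₀ := ⟨g, (memA g).2 hgR⟩
  have hf₀ : f₀ ^ p = 1 := Subtype.ext hf
  have hg₀ : g₀ ^ p = 1 := Subtype.ext hg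
  have k1 : ∀ x ∈ J1.subgroupOf A₀, ∀ y ∈ J1.subgroupOf A₀, x ∉ I.subgroupOf A₀ →
      y ∉ I.subgroupOf A₀ → x * y ∈ I.subgroupOf A₀ := fun x hx y hy hx' hy' =>
    h1 x.1 hx y.1 hy hx' hy'
  have k2 : ∀ x ∈ J2.subgroupOf A₀, ∀ y ∈ J2.subgroupOf A₀, x ∉ J1.subgroupOf A₀ →
      y ∉ J1.subgroupOf A₀ → x * y ∈ J1.subgroupOf A₀ := fun x hx y hy hx' hy' =>
    h2 x.1 hx y.1 hy hx' hy'
  have hf1 : f₀ ∉ J1.subgroupOf A₀ := fun h => hfI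
    (mem_of_two (I.subgroupOf A₀) (J1.subgroupOf A₀) k1 hp2 hf₀ h)
  have hf2 : f₀ ∉ J2.subgroupOf A₀ := fun h => hf1
    (mem_of_two (J1.subgroupOf A₀) (J2.subgroupOf A₀) k2 hp2 hf₀ h)
  have e2 : g₀ ∈ zpowers f₀ ⊔ J2.subgroupOf A₀ := by
    refine mem_sup_of (C := C) _ R₀ (fun x hx => (memR x 1).2 (hJ2 _ hx)) (fun x => ?_)
      (fun x y hx hy hx' hy' => h3 x.1 y.1 hx hy hx' hy') hp2 hf₀ hg₀ hf2
    obtain ⟨σ, hσ⟩ := (memA _).1 x.2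
    exact ⟨σ, hσ⟩
  have e1 := step_two (J1.subgroupOf A₀) (J2.subgroupOf A₀) k2 hp2 hf₀ hg₀ e2
  have e0 := step_two (I.subgroupOf A₀) (J1.subgroupOf A₀) k1 hp2 hf₀ hg₀ e1
  have hm : g ∈ (zpowers f₀ ⊔ I.subgroupOf A₀).map A₀.subtype := ⟨g₀, e0, rfl⟩
  rw [Subgroup.map_sup, MonoidHom.map_zpowers] at hm
  have hle : zpowers (A₀.subtype f₀) ⊔ (I.subgroupOf A₀).map A₀.subtype ≤ zpowers f ⊔ I := by
    refine sup_le_sup le_rfl ?_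
    rintro _ ⟨x, hx, rfl⟩
    exact hx
  exact hle hm

end Vale.Agent.P240.R2.H329
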