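import Vale.Agent.P240.R2.H275.F3Defs
import Vale.Agent.P240.R2.H275.F3c

/-!
The automorphisms of `PΩ(V)` induced by semilinear similitudes, form `diag(a)`.
-/

set_option autoImplicit false
set_option linter.all false

namespace Vale.Agent.P240.R2.H329.Ev

open Matrix Vale.Agent.P240.R2.H145.EO Vale.Agent.P240.R2.H275.F3
open Vale.Agent.P240.R2.H401.D (fd)

universe u v

section

variable {K : Type u} [Field K] {n : ℕ} {a : Fin n → K}

/-- the entrywise image -/
def gm (σ : K ≃+* K) : GL (Fin n) K →* GL (Fin n) K := Matrix.GeneralLinearGroup.map (σ : K →+* K)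

lemma gm_coe (σ : K ≃+* K) (g : GL (Fin n) K) : (gm σ g).1 = g.1.map σ := rfl

lemma gm_gm (σ τ : K ≃+* K) (g : GL (Fin n) K) : gm σ (gm τ g) = gm (σ * τ : RingAut K) g := by
  apply Units.ext
  rfl

lemma ac_gm (σ : K ≃+* K) (g : GL (Fin n) K) (v : Fin n → K) :
    ac (gm σ g) (fun i => σ (v i)) = fun i => σ (ac g v i) := by
  funext i
  show ((g.1.map σ) *ᵥ (fun i => σ (v i))) i = σ ((g.1 *ᵥ v) i)
  simp only [Matrix.mulVec, dotProduct, Matrix.map_apply, map_sum, map_mul]

/-- the twisted conjugate -/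
def tw (M : GL (Fin n) K) (σ : K ≃+* K) (g : GL (Fin n) K) : GL (Fin n) K := M * gm σ g * M⁻¹

lemma tw_mul (M : GL (Fin n) K) (σ : K ≃+* K) (g h : GL (Fin n) K) :
    tw M σ (g * h) = tw M σ g * tw M σ h := by
  unfold tw
  rw [map_mul]
  group

lemma tw_tw (M N : GL (Fin n) K) (σ τ : K ≃+* K) (g : GL (Fin n) K) :
    tw M σ (tw N τ g) = tw (M * gm σ N) (σ * τ : RingAut K) g := by
  unfold tw
  rw [map_mul, map_mul, map_inv, gm_gm]
  group

lemma gm_inj (σ : K ≃+* K) : Function.Injective (gm (n := n) σ) := by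
  intro g h hgh
  apply Units.ext
  ext i j
  have h1 : (gm σ g).1 = (gm σ h).1 := by rw [hgh]
  have h2 : (gm σ g).1 i j = (gm σ h).1 i j := by rw [h1]
  exact σ.injective h2

lemma tw_inj (M : GL (Fin n) K) (σ : K ≃+* K) : Function.Injective (tw M σ) := by
  intro g h hgh
  unfold tw at hgh
  exact gm_inj σ (mul_left_cancel (mul_right_cancel hgh))

lemma tw_iff {M g g' : GL (Fin n) K} {σ : K ≃+* K} :
    g' = tw M σ g ↔ g'.1 * M.1 = M.1 * g.1.map σ := by
  unfold tw
  rw [eq_mul_inv_iff_mul_eq]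
  constructor
  · intro h
    exact congrArg Units.val h
  · intro h
    exact Units.ext h

lemma tw_mem {M : GL (Fin n) K} {σ : K ≃+* K} {l : K} (h : SimM a M σ l) (hl : l ≠ 0)
    {g : GL (Fin n) K} (hg : g ∈ OD a) : tw M σ g ∈ OD a := by
  have key : ∀ v : Fin n → K, ∃ u : Fin n → K, v = ac M (fun i => σ (u i)) := by
    intro v
    refine ⟨fun i => σ.symm (ac M⁻¹ v i), ?_⟩
    simp only [RingEquiv.apply_symm_apply]
    exact (ac_inv' M v).symm
  have h1 : ∀ u : Fin n → K, ac (tw M σ g) (ac M (fun i => σ (u i))) =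
      ac M (fun i => σ (ac g u i)) := by
    intro u
    unfold tw
    rw [ac_mul, ac_mul, ac_inv, ac_gm]
  intro x y
  obtain ⟨u, rfl⟩ := key x
  obtain ⟨w, rfl⟩ := key y
  rw [h1, h1, h, h, OD_B hg]

/-- the twisted conjugation on the isometries -/
def twO {M : GL (Fin n) K} {σ : K ≃+* K} {l : K} (h : SimM a M σ l) (hl : l ≠ 0) :
    ↥(OD a) →* ↥(OD a) where
  toFun g := ⟨tw M σ g.1, tw_mem h hl g.2⟩
  map_one' := by
    apply Subtype.ext
    show M * gm σ 1 * M⁻¹ = 1
    rw [map_one, mul_one, mul_inv_cancel]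
  map_mul' g g' := Subtype.ext (tw_mul M σ g.1 g'.1)

lemma tw_SOD [Finite K] {M : GL (Fin n) K} {σ : K ≃+* K} {l : K} (h : SimM a M σ l) (hl : l ≠ 0)
    {g : GL (Fin n) K} (hg : g ∈ SOD a) : tw M σ g ∈ SOD a := by
  have hi : Function.Injective (twO h hl) := fun x y hxy =>
    Subtype.ext (tw_inj M σ (congrArg Subtype.val hxy))
  have hs : Function.Surjective (twO h hl) := Finite.surjective_of_injective hi
  have hc : Subgroup.center ↥(OD a) ≤ (Subgroup.center ↥(OD a)).comap (twO h hl) := by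
    intro z hz
    rw [Subgroup.mem_comap, Subgroup.mem_center_iff]
    intro y
    obtain ⟨y, rfl⟩ := hs y
    rw [← map_mul, ← map_mul, Subgroup.mem_center_iff.1 hz y]
  let f : PO a →* PO a := QuotientGroup.map _ _ (twO h hl) hc
  have hf : (commutator (PO a)).map f ≤ commutator (PO a) := by
    rw [commutator_def, Subgroup.map_commutator]
    exact Subgroup.commutator_mono le_top le_top
  obtain ⟨hO, hm⟩ := mem_SOD.1 hg
  rw [mem_SOD]
  exact ⟨tw_mem h hl hO, hf ⟨_, hm, rfl⟩⟩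

lemma actL_tw [Finite K] {x : MulAut ↥(commutator (PO a))} {M : GL (Fin n) K} {σ : K ≃+* K} {l : K}
    (h : SimM a M σ l) (hl : l ≠ 0) (hx : ActL x M σ) (g : SOD a) :
    x (cl a g) = cl a ⟨tw M σ g.1, tw_SOD h hl g.2⟩ := hx g _ (tw_iff.1 rfl)

lemma actL_of {x : MulAut ↥(commutator (PO a))} {M : GL (Fin n) K} {σ : K ≃+* K}
    (h : ∀ g g' : SOD a, g'.1 = tw M σ g.1 → x (cl a g) = cl a g') : ActL x M σ :=
  fun g g' hg => h g g' (tw_iff.2 hg)

lemma sim_comp {M N : GL (Fin n) K} {σ τ : K ≃+* K} {l l' : K} (h : SimM a M σ l)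
    (h' : SimM a N τ l') : SimM a (M * gm σ N) (σ * τ : RingAut K) (l * σ l') := by
  intro v w
  have h1 : ∀ v : Fin n → K, ac (M * gm σ N) (fun i => (σ * τ : RingAut K) (v i)) =
      ac M (fun i => σ (ac N (fun i => τ (v i)) i)) := by
    intro v
    rw [ac_mul]
    congr 1
    exact ac_gm σ N (fun i => τ (v i))
  rw [h1, h1, h, h', map_mul]
  show _ = l * σ l' * σ (τ (B a v w))
  ring

/-- the semilinear automorphisms: a submonoid -/
def RM [Finite K] (a : Fin n → K) : Submonoid (MulAut ↥(commutator (PO a)) × RingAut K) where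
  carrier := {z | ∃ (M : GL (Fin n) K) (l : K), l ≠ 0 ∧ SimM a M z.2 l ∧ ActL z.1 M z.2}
  one_mem' := by
    refine ⟨1, 1, one_ne_zero, fun v w => ?_, actL_of fun g g' h => ?_⟩
    · rw [ac_one, ac_one, one_mul]
      rfl
    · show cl a g = cl a g'
      congr 1
      apply Subtype.ext
      rw [h]
      apply Units.ext
      show g.1.1 = (1 * gm (1 : RingAut K) g.1 * 1⁻¹ : GL (Fin n) K).1
      rw [one_mul, inv_one, mul_one]
      rfl
  mul_mem' := by
    rintro ⟨x, σ⟩ ⟨y, τ⟩ ⟨M, l, hl, h, hx⟩ ⟨N, l', hl', h', hy⟩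
    refine ⟨M * gm σ N, l * σ l', mul_ne_zero hl (fun h0 => hl' ((map_eq_zero σ).1 h0)),
      sim_comp h h', actL_of fun g g' hg => ?_⟩
    show x (y (cl a g)) = cl a g'
    rw [actL_tw h' hl' hy g, actL_tw h hl hx]
    congr 1
    apply Subtype.ext
    show tw M σ (tw N τ g.1) = g'.1
    rw [hg, tw_tw]
    rfl

/-- the semilinear automorphisms -/
def RR [Finite K] (a : Fin n → K) : Subgroup (MulAut ↥(commutator (PO a)) × RingAut K) :=
  { RM a with
    inv_mem' := by
      intro z hz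
      have : Finite ↥(commutator (PO a)) := inferInstance
      have : Finite (MulAut ↥(commutator (PO a))) :=
        Finite.of_injective (fun f : MulAut ↥(commutator (PO a)) =>
          (f : ↥(commutator (PO a)) → ↥(commutator (PO a)))) DFunLike.coe_injective
      have : Finite (RingAut K) :=
        Finite.of_injective (fun f : RingAut K => (f : K → K)) DFunLike.coe_injective
      have h1 : z⁻¹ ∈ Submonoid.powers z := by
        rw [(isOfFinOrder_of_finite z).mem_powers_iff_mem_zpowers]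
        exact inv_mem (Subgroup.mem_zpowers z)
      exact (Submonoid.powers_le.2 hz) h1 }

lemma mem_RR [Finite K] {x : MulAut ↥(commutator (PO a))} {σ : RingAut K} :
    (x, σ) ∈ RR a ↔ ∃ (M : GL (Fin n) K) (l : K), l ≠ 0 ∧ SimM a M σ l ∧ ActL x M σ := Iff.rfl

end

end Vale.Agent.P240.R2.H329.Ev
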