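import Vale.Agent.P240.R2.H329.Ev1
import Vale.Agent.P240.R2.H329.Ev2
import Mathlib.LinearAlgebra.Matrix.SchurComplement
import Mathlib.FieldTheory.Finite.GaloisField

/-!
`FewAut p`, `p` odd, for `PΩ(V)`, form `diag(1, .., 1, d)`, `V` of even dimension, from the
semilinearity of the automorphisms.
-/

set_option autoImplicit false
set_option linter.all false

namespace Vale.Agent.P240.R2.H329.Ev

open Matrix Vale.Agent.P240.R2.H145.EO Vale.Agent.P240.R2.H275.F3 Vale.Agent.P240.H195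
open Vale.Agent.P240.R2.H401.D (fd)

universe u v

section

variable {K : Type u} [Field K] {n : ℕ} {a : Fin n → K}

lemma det_rf {v : Fin n → K} (hv : B a v v ≠ 0) : (rf a v hv).1.det = -1 := by
  have h1 : (rf a v hv).1 = 1 + vecMulVec ((-(2 / B a v v)) • v) (a * v) := by
    show 1 - (2 / B a v v) • vecMulVec v (a * v) = _
    rw [smul_vecMulVec, neg_smul, ← sub_eq_add_neg]
  rw [h1, vecMulVec_eq Unit, det_one_add_replicateCol_mul_replicateRow, dotProduct_smul]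
  have h3 : (a * v) ⬝ᵥ v = B a v v := rfl
  rw [h3, smul_eq_mul]
  field_simp
  ring

lemma det_OD (h2 : (2 : K) ≠ 0) (hn : 1 ≤ n) (ha : ∀ i, a i ≠ 0)
    (ha1 : ∀ i : Fin n, i.val + 1 < n → a i = 1) {g : GL (Fin n) K} (hg : g ∈ OD a) :
    g.1.det = 1 ∨ g.1.det = -1 := by
  have h1 := OD_le_RG h2 hn ha ha1 hg
  refine Subgroup.closure_induction (p := fun g _ => g.1.det = 1 ∨ g.1.det = -1) ?_ ?_ ?_ ?_ h1
  · rintro _ ⟨v, hv, rfl⟩
    exact Or.inr (det_rf hv)
  · left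
    show (1 : Matrix (Fin n) (Fin n) K).det = 1
    exact det_one
  · intro x y _ _ hx hy
    have h3 : (x * y).1.det = x.1.det * y.1.det := det_mul _ _
    rw [h3]
    rcases hx with hx | hx <;> rcases hy with hy | hy <;> rw [hx, hy]
    · left; ring
    · right; ring
    · right; ring
    · left; ring
  · intro x _ hx
    have h3 : (x⁻¹).1.det * x.1.det = 1 := by
      rw [← det_mul, ← Units.val_mul, inv_mul_cancel, Units.val_one, det_one]
    rcases hx with hx | hx <;> rw [hx] at h3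
    · left; linear_combination h3
    · right; linear_combination -h3

/-- the automorphism induced by an isometry -/
def cO (a : Fin n → K) : ↥(OD a) →* MulAut ↥(commutator (PO a)) :=
  (MulAut.conjNormal (H := commutator (PO a))).comp (QuotientGroup.mk' _)

lemma cO_coe (M : OD a) (c : commutator (PO a)) :
    ((cO a M c : commutator (PO a)) : PO a) =
      (QuotientGroup.mk M : PO a) * (c : PO a) * (QuotientGroup.mk M : PO a)⁻¹ :=
  MulAut.conjNormal_apply _ _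

lemma cO_act (M : OD a) : ActL (cO a M) M.1 (RingEquiv.refl K) := by
  refine actL_of fun g g' h => ?_
  apply Subtype.ext
  rw [cO_coe]
  show (QuotientGroup.mk M : PO a) * QuotientGroup.mk (⟨g.1, _⟩ : OD a) * (QuotientGroup.mk M)⁻¹ =
    QuotientGroup.mk (⟨g'.1, _⟩ : OD a)
  rw [← QuotientGroup.mk_inv, ← QuotientGroup.mk_mul, ← QuotientGroup.mk_mul]
  congr 1
  apply Subtype.ext
  show M.1 * g.1 * M.1⁻¹ = g'.1
  rw [h]
  unfold tw
  have h1 : gm (RingEquiv.refl K) g.1 = g.1 := by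
    apply Units.ext
    rfl
  rw [h1]

lemma sim_OD {M : GL (Fin n) K} (hM : M ∈ OD a) : SimM a M (RingEquiv.refl K) 1 := by
  intro v w
  rw [one_mul]
  exact hM v w

lemma eq_cO [Finite K] {x : MulAut ↥(commutator (PO a))} (M : OD a)
    (hx : ActL x M.1 (RingEquiv.refl K)) : x = cO a M := by
  apply MulEquiv.ext
  intro c
  obtain ⟨g, rfl⟩ := cl_surj c
  rw [actL_tw (sim_OD M.2) one_ne_zero hx, actL_tw (sim_OD M.2) one_ne_zero (cO_act M)]

lemma cO_RR [Finite K] (M : OD a) : (cO a M, (1 : RingAut K)) ∈ RR a :=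
  ⟨M.1, 1, one_ne_zero, sim_OD M.2, cO_act M⟩

/-- conjugates of the automorphisms induced by isometries -/
lemma conj_cO [Finite K] {y : MulAut ↥(commutator (PO a))} {N : GL (Fin n) K} {τ : RingAut K} {l : K}
    (hl : l ≠ 0) (h : SimM a N τ l) (hy : ActL y N τ) (M : OD a) :
    y * cO a M * y⁻¹ = cO a ⟨tw N τ M.1, tw_mem h hl M.2⟩ := by
  apply eq_cO
  refine actL_of fun g g' hg => ?_
  obtain ⟨c, hc⟩ := y.surjective (cl a g)
  obtain ⟨k, rfl⟩ := cl_surj c
  have h1 : (y * cO a M * y⁻¹) (cl a g) = y (cO a M (cl a k)) := by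
    show y (cO a M (y⁻¹ (cl a g))) = _
    rw [← hc, MulAut.inv_apply_self]
  rw [h1, actL_tw (sim_OD M.2) one_ne_zero (cO_act M), actL_tw h hl hy]
  have h3 : cl a ⟨tw N τ k.1, tw_SOD h hl k.2⟩ = cl a g := by
    rw [← actL_tw h hl hy]
    exact hc
  have h5 := cO_act (⟨tw N τ M.1, tw_mem h hl M.2⟩ : OD a)
  have e1 : ∀ z : GL (Fin n) K, gm (RingEquiv.refl K) z = z := fun z => Units.ext rfl
  have h6 : cO a ⟨tw N τ M.1, tw_mem h hl M.2⟩ (cl a ⟨tw N τ k.1, tw_SOD h hl k.2⟩) =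
      cl a ⟨tw N τ (tw M.1 (RingEquiv.refl K) k.1),
        tw_SOD h hl (tw_SOD (sim_OD M.2) one_ne_zero k.2)⟩ := by
    refine h5 _ _ (tw_iff.1 ?_)
    show tw N τ (tw M.1 (RingEquiv.refl K) k.1) = tw (tw N τ M.1) (RingEquiv.refl K) (tw N τ k.1)
    unfold tw
    rw [e1, e1, map_mul, map_mul, map_inv]
    group
  have h7 : cO a ⟨tw N τ M.1, tw_mem h hl M.2⟩ (cl a g) = cl a g' := h5 g g' (tw_iff.1 hg)
  rw [← h7, ← h3, h6]

/-- the kernel of the determinant -/
def D1 (a : Fin n → K) : Subgroup ↥(OD a) :=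
  (Matrix.GeneralLinearGroup.det.comp (OD a).subtype).ker

lemma mem_D1 {M : OD a} : M ∈ D1 a ↔ M.1.1.det = 1 := by
  unfold D1
  rw [MonoidHom.mem_ker]
  constructor
  · intro h
    exact congrArg Units.val h
  · intro h
    exact Units.ext h

lemma det_gm (σ : K ≃+* K) (g : GL (Fin n) K) : (gm σ g).1.det = σ g.1.det :=
  (RingHom.map_det (σ : K →+* K) g.1).symm

lemma det_tw (M : GL (Fin n) K) (σ : K ≃+* K) (g : GL (Fin n) K) :
    (tw M σ g).1.det = σ g.1.det := by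
  show (M.1 * (gm σ g).1 * (M⁻¹).1).det = _
  rw [det_mul, det_mul, det_gm, mul_comm, ← mul_assoc, ← det_mul]
  have h1 : (M⁻¹).1 * M.1 = 1 := by rw [← Units.val_mul, inv_mul_cancel, Units.val_one]
  rw [h1, det_one, one_mul]

/-- a similitude with square multiplier -/
lemma sim_sq [Finite K] {x : MulAut ↥(commutator (PO a))} {M : GL (Fin n) K} {c : K} (hc : c ≠ 0)
    (h : SimM a M (RingEquiv.refl K) (c * c)) (hx : ActL x M (RingEquiv.refl K)) :
    ∃ M' : OD a, x = cO a M' := by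
  let M' : GL (Fin n) K := ⟨c⁻¹ • M.1, c • (M⁻¹).1, by
    rw [smul_mul_smul_comm, Units.mul_inv, inv_mul_cancel₀ hc, one_smul], by
    rw [smul_mul_smul_comm, Units.inv_mul, mul_inv_cancel₀ hc, one_smul]⟩
  have hac : ∀ v, ac M' v = c⁻¹ • ac M v := fun v => smul_mulVec _ _ _
  have hM' : M' ∈ OD a := by
    intro v w
    rw [hac, hac, B_smul_left, B_smul_right]
    have h1 : B a (ac M v) (ac M w) = c * c * B a v w := h v w
    rw [h1]
    field_simp
  refine ⟨⟨M', hM'⟩, eq_cO _ ?_⟩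
  intro g g' hg
  apply hx
  have h3 : g'.1.1 * (c⁻¹ • M.1) = (c⁻¹ • M.1) * g.1.1.map (RingEquiv.refl K) := hg
  rw [mul_smul_comm, smul_mul_assoc] at h3
  exact smul_right_injective _ (inv_ne_zero hc) h3

lemma sim_mul [Finite K] {x y : MulAut ↥(commutator (PO a))} {M N : GL (Fin n) K} {l l' : K}
    (hl : l ≠ 0) (hl' : l' ≠ 0) (h : SimM a M (RingEquiv.refl K) l)
    (h' : SimM a N (RingEquiv.refl K) l') (hx : ActL x M (RingEquiv.refl K))
    (hy : ActL y N (RingEquiv.refl K)) : SimM a (M * N) (RingEquiv.refl K) (l * l') ∧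
      ActL (x * y) (M * N) (RingEquiv.refl K) := by
  constructor
  · intro v w
    have e1 : ∀ v, ac (M * N) (fun i => (RingEquiv.refl K) (v i)) = ac M (ac N v) := fun v =>
      ac_mul M N v
    have e2 : B a (ac M (ac N v)) (ac M (ac N w)) = l * B a (ac N v) (ac N w) := h _ _
    have e3 : B a (ac N v) (ac N w) = l' * B a v w := h' v w
    rw [e1, e1, e2, e3]
    show _ = l * l' * B a v w
    ring
  · refine actL_of fun g g' hg => ?_
    have e4 : (x * y) (cl a g) = x (y (cl a g)) := rfl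
    rw [e4, actL_tw h' hl' hy g, actL_tw h hl hx]
    congr 1
    apply Subtype.ext
    show tw M (RingEquiv.refl K) (tw N (RingEquiv.refl K) g.1) = g'.1
    have e1 : ∀ z : GL (Fin n) K, gm (RingEquiv.refl K) z = z := fun z => Units.ext rfl
    rw [hg]
    unfold tw
    rw [e1, e1]
    group

lemma RR_one [Finite K] {x : MulAut ↥(commutator (PO a))} (h : (x, (1 : RingAut K)) ∈ RR a) :
    ∃ (M : GL (Fin n) K) (l : K), l ≠ 0 ∧ SimM a M (RingEquiv.refl K) l ∧
      ActL x M (RingEquiv.refl K) := h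

end

/-- the automorphism group of a finite field is cyclic -/
lemma ring_cyc' (K : Type u) [Field K] [Finite K] : IsCyclic (RingAut K) := by
  obtain ⟨l, hl⟩ := CharP.exists K
  have : Fact l.Prime := ⟨CharP.char_is_prime K l⟩
  let _ : Algebra (ZMod l) K := ZMod.algebra K l
  let f : (K ≃ₐ[ZMod l] K) →* RingAut K :=
    { toFun := fun s => s.toRingEquiv
      map_one' := rfl
      map_mul' := fun _ _ => rfl }
  refine isCyclic_of_surjective f fun s => ?_
  refine ⟨AlgEquiv.ofRingEquiv (f := s) fun x => ?_, ?_⟩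
  · obtain ⟨k, rfl⟩ := ZMod.intCast_surjective x
    simp
  · ext x
    rfl

section main

variable {K : Type u} [Field K] [Fintype K] {n : ℕ} {a : Fin n → K}

lemma conj_iff {x : MulAut ↥(commutator (PO a))} :
    x ∈ (MulAut.conj (G := ↥(commutator (PO a)))).range ↔
      ∃ M : OD a, M.1 ∈ SOD a ∧ x = cO a M := by
  have key : ∀ g : SOD a, MulAut.conj (cl a g) = cO a ⟨g.1, (mem_SOD.1 g.2).1⟩ := by
    intro g
    apply MulEquiv.ext
    intro c
    apply Subtype.ext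
    rw [cO_coe]
    rfl
  constructor
  · rintro ⟨s, rfl⟩
    obtain ⟨g, rfl⟩ := cl_surj s
    exact ⟨⟨g.1, (mem_SOD.1 g.2).1⟩, g.2, key g⟩
  · rintro ⟨M, hM, rfl⟩
    exact ⟨cl a ⟨M.1, hM⟩, key ⟨M.1, hM⟩⟩

/-- two isometries of determinant one outside `SOD` -/
lemma prod_SOD (h2 : (2 : K) ≠ 0) (h5 : 5 < Fintype.card K) (hn : 3 ≤ n) (hne : Even n)
    (ha : ∀ i, a i ≠ 0) (ha1 : ∀ i : Fin n, i.val + 1 < n → a i = 1) {M N : OD a}
    (hM : M.1.1.det = 1) (hN : N.1.1.det = 1) (hM' : M.1 ∉ SOD a) (hN' : N.1 ∉ SOD a) :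
    (M * N).1 ∈ SOD a := by
  have hns : ∃ t : K, ¬ IsSquare t := by
    apply FiniteField.exists_nonsquare
    intro h
    apply h2
    have := ringChar.spec K 2
    rw [h] at this
    exact_mod_cast this.2 dvd_rfl
  obtain ⟨t, ht⟩ := hns
  have ht0 : t ≠ 0 := by
    rintro rfl
    exact ht ⟨0, by ring⟩
  have hx0 : ON a (fun i : Fin 0 => (0 : Fin n → K)) := fun i => i.elim0
  obtain ⟨v, -, hv⟩ := perp1 h2 ha ha1 (k := 0) (by omega) hx0 (one_ne_zero (α := K))
  obtain ⟨w, -, hw⟩ := perp1 h2 ha ha1 (k := 0) (by omega) hx0 ht0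
  have hv0 : B a v v ≠ 0 := by rw [hv]; exact one_ne_zero
  have hw0 : B a w w ≠ 0 := by rw [hw]; exact ht0
  have key : ∀ M : OD a, M.1.1.det = 1 → M.1 ∉ SOD a →
      abO a M = abO a ⟨rf a v hv0, rf_mem hv0⟩ * abO a ⟨rf a w hw0, rf_mem hw0⟩ := by
    intro M hM hM'
    have hno : ∀ (y : Fin n → K) (hy : B a y y ≠ 0), abO a M ≠ abO a ⟨rf a y hy, rf_mem hy⟩ := by
      intro y hy h
      have h3 : abO a (M * ⟨rf a y hy, rf_mem hy⟩) = 1 := by
        rw [map_mul, h]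
        exact abO_rf_sq hy
      rw [abO_eq_one] at h3
      have h4 := H275.det_SD h2 h5 hn hne ha ha1 h3
      have h6 : (M.1.1 * (rf a y hy).1).det = 1 := h4
      rw [det_mul, hM, det_rf hy, one_mul] at h6
      apply h2
      linear_combination -h6
    rcases abO_cases h2 (by omega) ha ha1 hv0 hw0 (by rw [hv]; exact ⟨1, by ring⟩)
      (by rw [hw]; exact ht) M with h | h | h | h
    · exact absurd ((abO_eq_one M).1 h) hM'
    · exact absurd h (hno v hv0)
    · exact absurd h (hno w hw0)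
    · exact h
  rw [← abO_eq_one, map_mul, key M hM hM', key N hN hN', mul_mul_mul_comm, abO_rf_sq, abO_rf_sq,
    mul_one]

lemma two_sim (h2 : (2 : K) ≠ 0) {x y : MulAut ↥(commutator (PO a))}
    (hx : (x, (1 : RingAut K)) ∈ RR a) (hy : (y, (1 : RingAut K)) ∈ RR a)
    (hxJ : x ∉ (cO a).range) (hyJ : y ∉ (cO a).range) : x * y ∈ (cO a).range := by
  obtain ⟨M, l, hl, h, hx⟩ := RR_one hx
  obtain ⟨N, l', hl', h', hy⟩ := RR_one hy
  have hns : ∀ (z : MulAut ↥(commutator (PO a))) (M : GL (Fin n) K) (l : K), l ≠ 0 →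
      SimM a M (RingEquiv.refl K) l → ActL z M (RingEquiv.refl K) → z ∉ (cO a).range →
      ¬ IsSquare l := by
    rintro z M l hl h hz hzJ ⟨c, rfl⟩
    apply hzJ
    obtain ⟨M', hM'⟩ := sim_sq (fun h0 => hl (by rw [h0, mul_zero])) h hz
    exact ⟨M', hM'.symm⟩
  obtain ⟨c, hc⟩ := nonsq_mul h2 (hns x M l hl h hx hxJ) (hns y N l' hl' h' hy hyJ)
  have hc0 : c ≠ 0 := by
    rintro rfl
    rw [mul_zero] at hc
    exact (mul_ne_zero hl hl') hc
  obtain ⟨e1, e2⟩ := sim_mul hl hl' h h' hx hy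
  rw [hc] at e1
  obtain ⟨M', hM'⟩ := sim_sq hc0 e1 e2
  exact ⟨M', hM'.symm⟩

/-- **`FewAut p`** from the semilinearity of the automorphisms of order `p` -/
theorem few_of (h2 : (2 : K) ≠ 0) (h5 : 5 < Fintype.card K) (hn : 3 ≤ n) (hne : Even n)
    (ha : ∀ i, a i ≠ 0) (ha1 : ∀ i : Fin n, i.val + 1 < n → a i = 1) {p : ℕ} (hp : p.Prime)
    (hp2 : p ≠ 2) (hsem : ∀ x : MulAut ↥(commutator (PO a)), x ^ p = 1 →
      ∃ σ : RingAut K, (x, σ) ∈ RR a) : FewAut p ↥(commutator (PO a)) := by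
  have : Fact p.Prime := ⟨hp⟩
  have : Finite ↥(commutator (PO a)) := inferInstance
  have : Finite (MulAut ↥(commutator (PO a))) :=
    Finite.of_injective (fun f : MulAut ↥(commutator (PO a)) =>
      (f : ↥(commutator (PO a)) → ↥(commutator (PO a)))) DFunLike.coe_injective
  have hcyc : IsCyclic (RingAut K) := ring_cyc' K
  have key : ∀ f g : MulAut ↥(commutator (PO a)), OutAut p f → OutAut p g →
      g ∈ Subgroup.zpowers f ⊔ (MulAut.conj (G := ↥(commutator (PO a)))).range := by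
    intro f g hf hg
    refine mem_sup_chain (C := RingAut K) _ ((D1 a).map (cO a)) (cO a).range (RR a) ?_ ?_ ?_ ?_ ?_ ?_
      ?_ hp2 (hsem f hf.1) (hsem g hg.1) hf.1 hg.1 hf.2
    · rintro _ ⟨M, rfl⟩
      exact cO_RR M
    · rintro ⟨y, τ⟩ ⟨N, l, hl, h, hy⟩ x hx
      obtain ⟨M, hM, rfl⟩ := conj_iff.1 hx
      rw [conj_iff]
      exact ⟨_, tw_SOD h hl hM, conj_cO hl h hy M⟩
    · rintro ⟨y, τ⟩ ⟨N, l, hl, h, hy⟩ _ ⟨M, hM, rfl⟩
      refine ⟨⟨tw N τ M.1, tw_mem h hl M.2⟩, ?_, (conj_cO hl h hy M).symm⟩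
      have hM' : M.1.1.det = 1 := mem_D1.1 hM
      show (⟨tw N τ M.1, tw_mem h hl M.2⟩ : OD a) ∈ D1 a
      rw [mem_D1]
      show (tw N τ M.1).1.det = 1
      rw [det_tw, hM', map_one]
    · rintro ⟨y, τ⟩ ⟨N, l, hl, h, hy⟩ _ ⟨M, rfl⟩
      exact ⟨⟨tw N τ M.1, tw_mem h hl M.2⟩, (conj_cO hl h hy M).symm⟩
    · intro x y hx hy hxJ hyJ
      exact two_sim h2 hx hy hxJ hyJ
    · rintro _ ⟨M, rfl⟩ _ ⟨N, rfl⟩ hM hN
      have hd : ∀ M : OD a, cO a M ∉ (D1 a).map (cO a) → M.1.1.det = -1 := by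
        intro M hM
        refine (det_OD h2 (by omega) ha ha1 M.2).resolve_left fun h => hM ⟨M, mem_D1.2 h, rfl⟩
      refine ⟨M * N, ?_, map_mul _ _ _⟩
      show M * N ∈ D1 a
      rw [mem_D1]
      show (M.1.1 * N.1.1).det = 1
      rw [det_mul, hd M hM, hd N hN]
      ring
    · rintro _ ⟨M, hM, rfl⟩ _ ⟨N, hN, rfl⟩ hM' hN'
      rw [conj_iff]
      refine ⟨M * N, prod_SOD h2 h5 hn hne ha ha1 (mem_D1.1 hM) (mem_D1.1 hN) ?_ ?_,
        (map_mul _ _ _).symm⟩
      · intro h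
        exact hM' (conj_iff.2 ⟨M, h, rfl⟩)
      · intro h
        exact hN' (conj_iff.2 ⟨N, h, rfl⟩)
  exact ⟨fun f g _ hf hg _ => Or.inl (key f g hf hg), Or.inl fun f g hf hg => key f g hf hg⟩

end main

/-- **(FEW) from (SEM)** -/
theorem stmtFEW_of (hS : StmtSEM.{u}) : StmtFEW.{u, v} := by
  intro K _ _ m d hK p hp hp2 hp3 L _ ⟨e⟩
  have hm := hK.hm
  refine (few_of hK.h2 hK.h5 (by omega) hK.modd.add_one (H275.fd_ne hK.hd) H275.fd_one hp hp2
    fun x hx => ?_).congr e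
  obtain ⟨M, σ, l, hl, h, hx'⟩ := hS K m d hK x (fun h7 hd => by
    refine ⟨p, hp, ?_, hx⟩
    have h3 := hp3 h7 hd
    have h2 := hp.two_le
    rcases Nat.lt_or_ge p 5 with h4 | h4
    · interval_cases p
      · exact absurd rfl hp2
      · exact absurd rfl h3
      · exact absurd hp (by norm_num)
    · exact h4)
  exact ⟨σ, M, l, hl, h, hx'⟩

end Vale.Agent.P240.R2.H329.Ev
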