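import Vale.Agent.P240.R2.H329.Ev3
import Vale.Agent.P240.R2.H296.OForm

/-!
`FewAut p`, `p` odd, for `PΩ` of a nondegenerate symmetric bilinear form of even dimension.
-/

set_option autoImplicit false
set_option linter.all false

namespace Vale.Agent.P240.R2.H329.Ev

open Matrix Vale.Agent.P240.R2.H275.F3 Vale.Agent.P240.H195
open Vale.Agent.P240.R2.H145.EO (B ac OD PO SOD)
open Vale.Agent.P240.R2.H401.D (fd)
open Vale.Agent.P240.R2.OF (OA POm dl)

universe u v

section

variable {K : Type u} [Field K] {n : ℕ} {a : Fin n → K}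

lemma B_eq (x y : Fin n → K) : B a x y = x ⬝ᵥ (diagonal a *ᵥ y) := by
  unfold B dotProduct
  refine Finset.sum_congr rfl fun i _ => ?_
  rw [mulVec_diagonal]
  ring

lemma mem_OA_iff {g : GL (Fin n) K} : g ∈ OA (diagonal a) ↔ g ∈ OD a := by
  have key : ∀ x y : Fin n → K, B a (ac g x) (ac g y) =
      x ⬝ᵥ (((g.1)ᵀ * diagonal a * g.1) *ᵥ y) := by
    intro x y
    rw [B_eq]
    show (g.1 *ᵥ x) ⬝ᵥ (diagonal a *ᵥ (g.1 *ᵥ y)) = _
    rw [← vecMul_transpose, ← dotProduct_mulVec, mulVec_mulVec, mulVec_mulVec, Matrix.mul_assoc]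
  constructor
  · intro hg x y
    have hg' : (g.1)ᵀ * diagonal a * g.1 = diagonal a := hg
    rw [key, hg', ← B_eq]
  · intro hg
    show (g.1)ᵀ * diagonal a * g.1 = diagonal a
    ext i j
    have h1 := hg (Pi.single i 1) (Pi.single j 1)
    rw [key, B_eq, mulVec_single_one, mulVec_single_one, single_one_dotProduct,
      single_one_dotProduct] at h1
    exact h1

lemma OA_eq (a : Fin n → K) : OA (diagonal a) = OD a := by
  ext g
  exact mem_OA_iff

/-- the two descriptions of the group -/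
noncomputable def pomD (m : ℕ) (D : K) : POm (dl m D) ≃* ↥(commutator (PO (fd m D))) :=
  OF.commCongr (MulEquiv.subgroupCongr (OA_eq (fd m D)))

end

/-- **`FewAut p`**, `p` an odd prime, for `PΩ(V)`, `V` of even dimension `n ≥ 8`, `q ≥ 7` odd, and
`p ≠ 3` if `n = 8` and the discriminant is a square (from `StmtSEM`) -/
theorem fewAut_POm_of (hS : StmtSEM.{u}) {F : Type u} [Field F] [Finite F] {n : ℕ} (hn : 8 ≤ n)
    (hne : n % 2 = 0) (h2 : (2 : F) ≠ 0) (h5 : 5 < Nat.card F) {A : Matrix (Fin n) (Fin n) F}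
    (hA : Aᵀ = A) (h0 : A.det ≠ 0) {p : ℕ} (hp : p.Prime) (hp2 : p ≠ 2)
    (h3 : n = 8 → IsSquare A.det → p ≠ 3) {L : Type v} [Group L] (e : L ≃* POm A) :
    FewAut p L := by
  haveI := Fintype.ofFinite F
  obtain ⟨m, rfl⟩ : ∃ m, n = m + 1 := ⟨n - 1, by omega⟩
  obtain ⟨D, hD, P, hP⟩ := OF.exists_normal h2 hA h0
  obtain ⟨f⟩ := OF.nonempty_POm (c := 1) one_ne_zero (hP.trans (one_smul F _).symm)
  have hK : FNum F m D := by
    refine ⟨h2, ?_, by omega, ?_, hD⟩
    · rwa [Nat.card_eq_fintype_card] at h5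
    · rw [Nat.odd_iff]
      omega
  refine stmtFEW_of.{u, v} hS F m D hK p hp hp2 (fun h7 hsq => h3 (by omega) ?_) L
    ⟨((e.trans f).trans (pomD m D)).symm⟩
  obtain ⟨c, hc⟩ := hsq
  have h1 : P.1.det * P.1.det * A.det = c * c := by
    have h4 := congrArg Matrix.det hP
    rw [det_mul, det_mul, det_transpose, OF.dl_det, hc] at h4
    rw [← h4]
    ring
  have hP0 : P.1.det ≠ 0 := by
    have h4 := congrArg Matrix.det (OF.val_mul_inv P)
    rw [det_mul, det_one] at h4
    exact left_ne_zero_of_mul_eq_one h4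
  refine ⟨c / P.1.det, ?_⟩
  field_simp
  linear_combination h1

end Vale.Agent.P240.R2.H329.Ev
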