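import Vale.Agent.P240.R2.H329.Ev4
import Vale.Agent.P240.R2.H275.F3i

/-!
`FewAut p`, `p` odd, for `PΩ` of a nondegenerate symmetric bilinear form of even dimension:
unconditional.
-/

set_option autoImplicit false
set_option linter.all false

namespace Vale.Agent.P240.R2.H329.Ev

open Matrix Vale.Agent.P240.H195
open Vale.Agent.P240.R2.OF (POm)

universe u v

/-- **`FewAut p`**, `p` an odd prime, for `PΩ(V)`, `V` of even dimension `n ≥ 8` over a field of odd
order `q ≥ 7`, and `p ≠ 3` if `n = 8` and the discriminant is a square -/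
theorem fewAut_POm {F : Type u} [Field F] [Finite F] {n : ℕ} (hn : 8 ≤ n)
    (hne : n % 2 = 0) (h2 : (2 : F) ≠ 0) (h5 : 5 < Nat.card F) {A : Matrix (Fin n) (Fin n) F}
    (hA : Aᵀ = A) (h0 : A.det ≠ 0) {p : ℕ} (hp : p.Prime) (hp2 : p ≠ 2)
    (h3 : n = 8 → IsSquare A.det → p ≠ 3) {L : Type v} [Group L] (e : L ≃* POm A) :
    FewAut p L :=
  fewAut_POm_of H275.F3.stmtSEM hn hne h2 h5 hA h0 hp hp2 h3 e

end Vale.Agent.P240.R2.H329.Ev
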