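import Vale.Agent.P240.R2.H329.Abs
import Vale.Agent.P240.R2.H112.SA
import Vale.Agent.P240.H195.Few

/-!
P240: for an odd prime `p`, all subgroups of order `p` of the outer automorphism group of `PSp_{2m}(q)`
generated by images of automorphisms of order `p` coincide (`q` odd, `m ≥ 2`).
-/

set_option autoImplicit false

namespace Vale.Agent.P240.R2.H329

open Matrix Subgroup Vale.Agent.P240.H195

universe u v

noncomputable section

variable {K : Type u} [Field K] {m : ℕ}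

/-- the simple symplectic group -/
abbrev PQ (K : Type u) [Field K] (m : ℕ) : Type u :=
  Vale.Agent.P240.R2.H715.Sy K m ⧸ center (Vale.Agent.P240.R2.H715.Sy K m)

/-- `f` is induced by the semilinear similitude `M ∘ σ` with multiplier `μ` -/
structure Ty (f : MulAut (PQ K m)) (M : Matrix (Fin m ⊕ Fin m) (Fin m ⊕ Fin m) K) (μ : K)
    (σ : RingAut K) : Prop where
  ne : μ ≠ 0
  sim : M * J (Fin m) K * Mᵀ = μ • J (Fin m) K
  ind : ∀ h h' : Vale.Agent.P240.R2.H715.Sy K m, h'.1 * M = M * h.1.map σ →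
        f (QuotientGroup.mk h) = QuotientGroup.mk h'

lemma J_map (σ : RingAut K) : (J (Fin m) K).map σ = J (Fin m) K := by
  unfold J
  rw [fromBlocks_map, Matrix.map_zero _ (map_zero σ), Matrix.map_one _ (map_zero σ) (map_one σ)]
  congr 1
  ext a b
  simp [Matrix.one_apply, apply_ite σ]

lemma smul_map (σ : RingAut K) (c : K) (M : Matrix (Fin m ⊕ Fin m) (Fin m ⊕ Fin m) K) :
    (c • M).map σ = σ c • M.map σ := by
  ext i j
  simp

lemma mul_map (σ : RingAut K) (M N : Matrix (Fin m ⊕ Fin m) (Fin m ⊕ Fin m) K) :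
    (M * N).map σ = M.map σ * N.map σ := Matrix.map_mul

lemma map_map' (σ τ : RingAut K) (M : Matrix (Fin m ⊕ Fin m) (Fin m ⊕ Fin m) K) :
    (M.map τ).map σ = M.map (σ * τ) := by
  ext i j
  simp

lemma map_one' (M : Matrix (Fin m ⊕ Fin m) (Fin m ⊕ Fin m) K) : M.map (1 : RingAut K) = M := by
  ext i j
  simp

lemma map_inv' (σ : RingAut K) (M : Matrix (Fin m ⊕ Fin m) (Fin m ⊕ Fin m) K) :
    (M.map (σ⁻¹ : RingAut K)).map σ = M := by
  rw [map_map', mul_inv_cancel, map_one']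

lemma transpose_map' (σ : RingAut K) (M : Matrix (Fin m ⊕ Fin m) (Fin m ⊕ Fin m) K) :
    (M.map σ)ᵀ = Mᵀ.map σ := rfl

lemma sim_map {M : Matrix (Fin m ⊕ Fin m) (Fin m ⊕ Fin m) K} {μ : K}
    (h : M * J (Fin m) K * Mᵀ = μ • J (Fin m) K) (σ : RingAut K) :
    M.map σ * J (Fin m) K * (M.map σ)ᵀ = σ μ • J (Fin m) K := by
  have := congrArg (fun X => X.map σ) h
  simp only [mul_map, smul_map, J_map] at this
  rw [transpose_map']
  exact this

lemma isUnit_of_sim {M : Matrix (Fin m ⊕ Fin m) (Fin m ⊕ Fin m) K} {μ : K} (hμ : μ ≠ 0)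
    (h : M * J (Fin m) K * Mᵀ = μ • J (Fin m) K) : IsUnit M.det := by
  have hJJ : J (Fin m) K * J (Fin m) K = -1 := J_squared _ _
  have hN : M * (-(μ⁻¹) • (J (Fin m) K * Mᵀ * J (Fin m) K)) = 1 := by
    rw [Matrix.mul_smul, ← Matrix.mul_assoc, ← Matrix.mul_assoc, h, Matrix.smul_mul, hJJ, smul_smul,
      neg_mul, inv_mul_cancel₀ hμ, smul_neg, neg_smul, one_smul, neg_neg]
  exact (Matrix.isUnit_iff_isUnit_det M).1 (IsUnit.of_mul_eq_one _ hN)

lemma sim_inv {M : Matrix (Fin m ⊕ Fin m) (Fin m ⊕ Fin m) K} {μ : K} (hμ : μ ≠ 0)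
    (h : M * J (Fin m) K * Mᵀ = μ • J (Fin m) K) :
    M⁻¹ * J (Fin m) K * (M⁻¹)ᵀ = μ⁻¹ • J (Fin m) K := by
  have hd := isUnit_of_sim hμ h
  have h1 : M⁻¹ * M = 1 := Matrix.nonsing_inv_mul M hd
  have h2 : Mᵀ * (M⁻¹)ᵀ = 1 := by rw [← Matrix.transpose_mul, h1, Matrix.transpose_one]
  have h3 : M⁻¹ * (M * J (Fin m) K * Mᵀ) * (M⁻¹)ᵀ = J (Fin m) K := by
    calc M⁻¹ * (M * J (Fin m) K * Mᵀ) * (M⁻¹)ᵀ = (M⁻¹ * M) * J (Fin m) K * (Mᵀ * (M⁻¹)ᵀ) := by
          simp only [Matrix.mul_assoc]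
      _ = J (Fin m) K := by rw [h1, h2, Matrix.one_mul, Matrix.mul_one]
  rw [h, Matrix.mul_smul, Matrix.smul_mul] at h3
  rw [← h3, smul_smul, inv_mul_cancel₀ hμ, one_smul, h3]

/-- the conjugate of a symplectic matrix by a similitude is symplectic -/
lemma exists_conj {M : Matrix (Fin m ⊕ Fin m) (Fin m ⊕ Fin m) K} {μ : K} (hμ : μ ≠ 0)
    (h : M * J (Fin m) K * Mᵀ = μ • J (Fin m) K) (s : Vale.Agent.P240.R2.H715.Sy K m) :
    ∃ s' : Vale.Agent.P240.R2.H715.Sy K m, s'.1 * M = M * s.1 := by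
  have hd := isUnit_of_sim hμ h
  have h1 : M⁻¹ * M = 1 := Matrix.nonsing_inv_mul M hd
  refine ⟨⟨M * s.1 * M⁻¹, ?_⟩, ?_⟩
  · rw [SymplecticGroup.mem_iff]
    have hs : s.1 * J (Fin m) K * (s.1)ᵀ = J (Fin m) K := SymplecticGroup.mem_iff.1 s.2
    calc M * s.1 * M⁻¹ * J (Fin m) K * (M * s.1 * M⁻¹)ᵀ
        = M * s.1 * (M⁻¹ * J (Fin m) K * (M⁻¹)ᵀ) * (s.1)ᵀ * Mᵀ := by
          simp only [Matrix.transpose_mul, Matrix.mul_assoc]
      _ = μ⁻¹ • (M * (s.1 * J (Fin m) K * (s.1)ᵀ) * Mᵀ) := by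
          rw [sim_inv hμ h]
          simp only [Matrix.mul_smul, Matrix.smul_mul, Matrix.mul_assoc]
      _ = J (Fin m) K := by rw [hs, h, smul_smul, inv_mul_cancel₀ hμ, one_smul]
  · show M * s.1 * M⁻¹ * M = M * s.1
    rw [Matrix.mul_assoc, h1, Matrix.mul_one]

theorem Ty.mul {f g : MulAut (PQ K m)} {M N : Matrix (Fin m ⊕ Fin m) (Fin m ⊕ Fin m) K} {μ ν : K}
    {σ τ : RingAut K} (hf : Ty f M μ σ) (hg : Ty g N ν τ) :
    Ty (f * g) (M * N.map σ) (μ * σ ν) (σ * τ) := by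
  refine ⟨mul_ne_zero hf.ne (by simpa using hg.ne), ?_, fun h h'' hh => ?_⟩
  · calc M * N.map σ * J (Fin m) K * (M * N.map σ)ᵀ
        = M * (N.map σ * J (Fin m) K * (N.map σ)ᵀ) * Mᵀ := by
          simp only [Matrix.transpose_mul, Matrix.mul_assoc]
      _ = (μ * σ ν) • J (Fin m) K := by
          rw [sim_map hg.sim, Matrix.mul_smul, Matrix.smul_mul, hf.sim, smul_smul, mul_comm]
  · obtain ⟨h', hh'⟩ := exists_conj hg.ne hg.sim
      ⟨h.1.map τ, SymplecticGroup.map_mem h.2 τ⟩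
    have h1 := hg.ind h h' hh'
    rw [MulAut.mul_apply, h1]
    refine hf.ind h' h'' ?_
    have hu : IsUnit (N.map σ).det := isUnit_of_sim (μ := σ ν) (by simpa using hg.ne)
      (sim_map hg.sim σ)
    have h2 : N.map σ * (N.map σ)⁻¹ = 1 := Matrix.mul_nonsing_inv _ hu
    have h3 : h''.1 * M * N.map σ = M * h'.1.map σ * N.map σ := by
      calc h''.1 * M * N.map σ = h''.1 * (M * N.map σ) := by rw [Matrix.mul_assoc]
        _ = M * (N * h.1.map τ).map σ := by rw [hh, mul_map, map_map', Matrix.mul_assoc]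
        _ = M * h'.1.map σ * N.map σ := by rw [← hh', mul_map, Matrix.mul_assoc]
    calc h''.1 * M = h''.1 * M * (N.map σ * (N.map σ)⁻¹) := by rw [h2, Matrix.mul_one]
      _ = h''.1 * M * N.map σ * (N.map σ)⁻¹ := by rw [Matrix.mul_assoc _ (N.map σ)]
      _ = M * h'.1.map σ * (N.map σ * (N.map σ)⁻¹) := by rw [h3, Matrix.mul_assoc _ (N.map σ)]
      _ = M * h'.1.map σ := by rw [h2, Matrix.mul_one]

theorem Ty.one : Ty (1 : MulAut (PQ K m)) 1 1 1 := by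
  refine ⟨one_ne_zero, by simp, fun h h' hh => ?_⟩
  rw [map_one', Matrix.mul_one, Matrix.one_mul] at hh
  rw [MulAut.one_apply, Subtype.ext hh]

theorem Ty.inv {f : MulAut (PQ K m)} {M : Matrix (Fin m ⊕ Fin m) (Fin m ⊕ Fin m) K} {μ : K}
    {σ : RingAut K} (hf : Ty f M μ σ) : Ty f⁻¹ ((M⁻¹).map (σ⁻¹ : RingAut K)) (σ⁻¹ μ⁻¹) σ⁻¹ := by
  have hd := isUnit_of_sim hf.ne hf.sim
  have hm1 : M⁻¹ * M = 1 := Matrix.nonsing_inv_mul M hd
  have hm2 : M * M⁻¹ = 1 := Matrix.mul_nonsing_inv M hd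
  refine ⟨by simpa using hf.ne, sim_map (sim_inv hf.ne hf.sim) _, fun h h'' hh => ?_⟩
  have h1 := congrArg (fun X => X.map σ) hh
  simp only [mul_map, map_inv'] at h1
  have h2 : h.1 * M = M * h''.1.map σ := by
    calc h.1 * M = M * (M⁻¹ * h.1) * M := by rw [← Matrix.mul_assoc M, hm2, Matrix.one_mul]
      _ = M * h''.1.map σ * (M⁻¹ * M) := by rw [← h1]; simp only [Matrix.mul_assoc]
      _ = M * h''.1.map σ := by rw [hm1, Matrix.mul_one]
  have h3 := hf.ind h'' h h2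
  rw [← h3, MulAut.inv_apply_self]

theorem Ty.conj (s : Vale.Agent.P240.R2.H715.Sy K m) :
    Ty (MulAut.conj (QuotientGroup.mk s : PQ K m)) s.1 1 1 := by
  refine ⟨one_ne_zero, by rw [one_smul]; exact SymplecticGroup.mem_iff.1 s.2, fun h h' hh => ?_⟩
  rw [map_one'] at hh
  have h1 : h' * s = s * h := Subtype.ext hh
  rw [MulAut.conj_apply, ← QuotientGroup.mk_mul, ← QuotientGroup.mk_inv, ← QuotientGroup.mk_mul,
    ← h1, mul_inv_cancel_right]

theorem Ty.inner {f : MulAut (PQ K m)} {M : Matrix (Fin m ⊕ Fin m) (Fin m ⊕ Fin m) K} {c : K}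
    (hf : Ty f M (c * c) 1) : f ∈ (MulAut.conj (G := PQ K m)).range := by
  have hc : c ≠ 0 := fun h => hf.ne (by rw [h, mul_zero])
  have hs : c⁻¹ • M ∈ symplecticGroup (Fin m) K := by
    rw [SymplecticGroup.mem_iff, Matrix.transpose_smul, Matrix.smul_mul, Matrix.smul_mul,
      Matrix.mul_smul, hf.sim, smul_smul, smul_smul]
    rw [show c⁻¹ * c⁻¹ * (c * c) = 1 by field_simp, one_smul]
  refine ⟨QuotientGroup.mk (⟨c⁻¹ • M, hs⟩ : Vale.Agent.P240.R2.H715.Sy K m), ?_⟩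
  ext x
  obtain ⟨h, rfl⟩ := QuotientGroup.mk_surjective x
  rw [MulAut.conj_apply, ← QuotientGroup.mk_mul, ← QuotientGroup.mk_inv, ← QuotientGroup.mk_mul]
  symm
  refine hf.ind h _ ?_
  rw [map_one']
  have h1 : (⟨c⁻¹ • M, hs⟩ * h * (⟨c⁻¹ • M, hs⟩)⁻¹ : Vale.Agent.P240.R2.H715.Sy K m) *
      ⟨c⁻¹ • M, hs⟩ = ⟨c⁻¹ • M, hs⟩ * h := by group
  have h2 := congrArg (fun X : Vale.Agent.P240.R2.H715.Sy K m => c • X.1) h1
  have h3 : c • ((⟨c⁻¹ • M, hs⟩ * h * (⟨c⁻¹ • M, hs⟩)⁻¹ : Vale.Agent.P240.R2.H715.Sy K m).1 *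
      (c⁻¹ • M)) = c • ((c⁻¹ • M) * h.1) := h2
  rw [Matrix.mul_smul, Matrix.smul_mul, smul_smul, smul_smul, mul_inv_cancel₀ hc, one_smul,
    one_smul] at h3
  exact h3

/-- the pairs `(f, σ)`, `f` induced by a `σ`-semilinear similitude -/
def RS (K : Type u) [Field K] (m : ℕ) : Subgroup (MulAut (PQ K m) × RingAut K) where
  carrier := {x | ∃ M μ, Ty x.1 M μ x.2}
  mul_mem' := by
    rintro ⟨f, σ⟩ ⟨g, τ⟩ ⟨M, μ, hf⟩ ⟨N, ν, hg⟩
    exact ⟨_, _, hf.mul hg⟩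
  one_mem' := ⟨1, 1, Ty.one⟩
  inv_mem' := by
    rintro ⟨f, σ⟩ ⟨M, μ, hf⟩
    exact ⟨_, _, hf.inv⟩

lemma sq_of [Finite K] (h2 : (2 : K) ≠ 0) {μ ν : K} (hμ : μ ≠ 0) (hν : ν ≠ 0)
    (h1 : ¬ IsSquare μ) (h3 : ¬ IsSquare ν) : IsSquare (μ * ν) := by
  have := Fintype.ofFinite K
  classical
  have hc : ringChar K ≠ 2 := by
    intro h
    apply h2
    have := ringChar.spec K 2
    rw [h] at this
    exact_mod_cast this.2 dvd_rfl
  rw [FiniteField.isSquare_iff hc hμ] at h1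
  rw [FiniteField.isSquare_iff hc hν] at h3
  rw [FiniteField.isSquare_iff hc (mul_ne_zero hμ hν), mul_pow]
  have e1 := (FiniteField.pow_dichotomy hc hμ).resolve_left h1
  have e2 := (FiniteField.pow_dichotomy hc hν).resolve_left h3
  rw [e1, e2]
  ring

/-- the automorphism group of a finite field is cyclic -/
lemma cyc_aut (K : Type u) [Field K] [Finite K] : IsCyclic (RingAut K) := by
  obtain ⟨l, hl⟩ := CharP.exists K
  have : Fact l.Prime := ⟨CharP.char_is_prime K l⟩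
  let _ : Algebra (ZMod l) K := ZMod.algebra K l
  let f : (K ≃ₐ[ZMod l] K) →* RingAut K :=
    { toFun := fun s => s.toRingEquiv
      map_one' := rfl
      map_mul' := fun _ _ => rfl }
  refine isCyclic_of_surjective f fun s => ?_
  refine ⟨AlgEquiv.ofRingEquiv (f := s) fun x => ?_, ?_⟩
  · obtain ⟨k, rfl⟩ := ZMod.intCast_surjective x
    simp
  · ext x
    rfl

/-- **`FewAut p` for `PSp_{2m}(q)`**, `p` an odd prime, `q` odd, `m ≥ 2`. -/
theorem fewAut_PQ {p : ℕ} (hp : p.Prime) (hp2 : p ≠ 2) [Finite K] (h2 : (2 : K) ≠ 0)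
    (hm : 2 ≤ m) : FewAut p (PQ K m) := by
  have : Fact p.Prime := ⟨hp⟩
  have hfin : Finite (PQ K m) := inferInstance
  have : Finite (MulAut (PQ K m)) := Finite.of_injective (fun f : MulAut (PQ K m) => (f : PQ K m → PQ K m))
    DFunLike.coe_injective
  have := cyc_aut K
  have hN : ((MulAut.conj (G := PQ K m)).range).Normal := by
    constructor
    rintro _ ⟨s, rfl⟩ f
    refine ⟨f s, ?_⟩
    ext x
    simp [MulAut.conj_apply]
  have key : ∀ f g : MulAut (PQ K m), OutAut p f → OutAut p g →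
      g ∈ zpowers f ⊔ (MulAut.conj (G := PQ K m)).range := by
    intro f g hf hg
    refine mem_sup_of (C := RingAut K) _ (RS K m) ?_ ?_ ?_ hp2 hf.1 hg.1 hf.2
    · rintro _ ⟨s, rfl⟩
      obtain ⟨s, rfl⟩ := QuotientGroup.mk_surjective s
      exact ⟨_, _, Ty.conj s⟩
    · intro f
      obtain ⟨M, μ, σ, h1, h3, h4⟩ := Vale.Agent.P240.R2.H112.stmtSA' h2 hm f
      exact ⟨σ, M, μ, h1, h3, h4⟩
    · rintro x y ⟨M, μ, hx⟩ ⟨N, ν, hy⟩ hxI hyI
      have h1 : ¬ IsSquare μ := by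
        rintro ⟨c, rfl⟩
        exact hxI hx.inner
      have h3 : ¬ IsSquare ν := by
        rintro ⟨c, rfl⟩
        exact hyI hy.inner
      obtain ⟨c, hc⟩ := sq_of h2 hx.ne hy.ne h1 h3
      have h5 := hx.mul hy
      rw [RingAut.one_apply, hc] at h5
      exact Ty.inner (c := c) (by simpa using h5)
  exact ⟨fun f g _ hf hg _ => Or.inl (key f g hf hg), Or.inl fun f g hf hg => key f g hf hg⟩

theorem fewAut_PSp {p : ℕ} (hp : p.Prime) (hp2 : p ≠ 2) [Finite K] (h2 : (2 : K) ≠ 0)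
    (hm : 2 ≤ m) {L : Type v} [Group L]
    (e : L ≃* Vale.Agent.P240.R2.H715.Sy K m ⧸ center (Vale.Agent.P240.R2.H715.Sy K m)) :
    FewAut p L := (fewAut_PQ hp hp2 h2 hm).congr e.symm

end

end Vale.Agent.P240.R2.H329
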