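import Mathlib.LinearAlgebra.Matrix.NonsingularInverse
import Mathlib.LinearAlgebra.Matrix.ToLin
import Mathlib.LinearAlgebra.FiniteDimensional.Lemmas
import Mathlib.LinearAlgebra.Dimension.Constructions
import Mathlib.Data.Int.Order.Units
import Mathlib.Algebra.GroupWithZero.Units.Fintype
import Mathlib.Tactic.Ring
import Mathlib.Tactic.FieldSimp
import Mathlib.Tactic.LinearCombination
import Mathlib.Tactic.Module

/-!
Faithful representations of the elementary abelian group of order `2 ^ n` in dimension `n`.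
-/

set_option autoImplicit false

namespace Vale.Agent.P240.R2.H329

open Finset Matrix

section pairing

variable {K : Type*} [Field K] {n : ℕ}

/-- the pairing of `{1, -1}` with itself -/
def f1 (K : Type*) [Field K] (a b : ℤˣ) : K := if a = -1 ∧ b = -1 then -1 else 1

lemma units_cases (a : ℤˣ) : a = 1 ∨ a = -1 := Int.units_eq_one_or a

lemma f1_mul (a b c : ℤˣ) : f1 K a (b * c) = f1 K a b * f1 K a c := by
  rcases units_cases a with rfl | rfl <;> rcases units_cases b with rfl | rfl <;>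
    rcases units_cases c with rfl | rfl <;> simp [f1]

lemma f1_comm (a b : ℤˣ) : f1 K a b = f1 K b a := by
  unfold f1
  simp only [and_comm]

lemma f1_sum (a b : ℤˣ) : ∑ c : ℤˣ, f1 K a c * f1 K b c = if a = b then 2 else 0 := by
  have h : (Finset.univ : Finset ℤˣ) = {1, -1} := rfl
  rw [h, Finset.sum_insert (by decide), Finset.sum_singleton]
  rcases units_cases a with rfl | rfl <;> rcases units_cases b with rfl | rfl <;>
    norm_num [f1]

/-- the pairing of sign vectors -/
def ch (K : Type*) [Field K] {n : ℕ} (s e : Fin n → ℤˣ) : K := ∏ i, f1 K (s i) (e i)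

lemma ch_mul (s e e' : Fin n → ℤˣ) : ch K s (e * e') = ch K s e * ch K s e' := by
  unfold ch
  rw [← Finset.prod_mul_distrib]
  exact Finset.prod_congr rfl fun i _ => f1_mul _ _ _

lemma ch_comm (s e : Fin n → ℤˣ) : ch K s e = ch K e s :=
  Finset.prod_congr rfl fun _ _ => f1_comm _ _

lemma ch_one (s : Fin n → ℤˣ) : ch K s 1 = 1 := by
  unfold ch
  refine Finset.prod_eq_one fun i _ => ?_
  simp [f1]

lemma ch_pm (s e : Fin n → ℤˣ) : ch K s e = 1 ∨ ch K s e = -1 := by
  have h : ch K s e * ch K s e = 1 := by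
    rw [← ch_mul]
    have : e * e = 1 := by
      funext i
      exact Int.units_mul_self _
    rw [this, ch_one]
  exact mul_self_eq_one_iff.1 h

lemma ch_sum (s t : Fin n → ℤˣ) :
    ∑ e : Fin n → ℤˣ, ch K s e * ch K t e = if s = t then 2 ^ n else 0 := by
  have h1 : ∀ e : Fin n → ℤˣ, ch K s e * ch K t e = ∏ i, f1 K (s i) (e i) * f1 K (t i) (e i) :=
    fun e => Finset.prod_mul_distrib.symm
  simp only [h1]
  have h2 := Finset.prod_univ_sum (fun _ : Fin n => (Finset.univ : Finset ℤˣ))
    (fun i c => f1 K (s i) c * f1 K (t i) c)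
  rw [Fintype.piFinset_univ] at h2
  rw [← h2]
  simp only [f1_sum]
  split_ifs with h
  · subst h
    simp
  · obtain ⟨i, hi⟩ := Function.ne_iff.1 h
    exact Finset.prod_eq_zero (Finset.mem_univ i) (by rw [if_neg hi])

end pairing

section rep

variable {K : Type*} [Field K] {n : ℕ}

/-- the projection onto the weight space -/
def Pw (ρ : (Fin n → ℤˣ) →* Matrix (Fin n) (Fin n) K) (s : Fin n → ℤˣ) :
    Matrix (Fin n) (Fin n) K := ((2 : K) ^ n)⁻¹ • ∑ e, ch K s e • ρ e

variable (ρ : (Fin n → ℤˣ) →* Matrix (Fin n) (Fin n) K)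

lemma rho_Pw (s e : Fin n → ℤˣ) : ρ e * Pw ρ s = ch K s e • Pw ρ s := by
  have hee : e * e = 1 := by
    funext i
    exact Int.units_mul_self _
  unfold Pw
  rw [Matrix.mul_smul, smul_comm (ch K s e)]
  congr 1
  rw [Finset.mul_sum, Finset.smul_sum]
  rw [← Equiv.sum_comp (Equiv.mulLeft e)]
  refine Finset.sum_congr rfl fun x _ => ?_
  rw [Equiv.coe_mulLeft, ch_mul, Matrix.mul_smul, ← map_mul, ← mul_assoc, hee, one_mul, mul_smul]

lemma sum_Pw (h2 : (2 : K) ≠ 0) : ∑ s, Pw ρ s = 1 := by
  unfold Pw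
  rw [← Finset.smul_sum, Finset.sum_comm]
  have h1 : ∀ e : Fin n → ℤˣ, ∑ s : Fin n → ℤˣ, ch K s e • ρ e =
      (if e = 1 then (2 : K) ^ n else 0) • ρ e := by
    intro e
    rw [← Finset.sum_smul]
    congr 1
    have h3 := ch_sum (K := K) e 1
    have h4 : ∀ x : Fin n → ℤˣ, ch K e x * ch K 1 x = ch K x e := by
      intro x
      rw [ch_comm 1 x, ch_one, mul_one, ch_comm]
    simp only [h4] at h3
    exact h3
  simp only [h1]
  rw [Finset.sum_eq_single (1 : Fin n → ℤˣ)]
  · rw [if_pos rfl, smul_smul, inv_mul_cancel₀ (pow_ne_zero n h2), one_smul, map_one]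
  · intro e _ he
    rw [if_neg he, zero_smul]
  · intro h
    exact absurd (Finset.mem_univ _) h

lemma rho_sum (h2 : (2 : K) ≠ 0) (e : Fin n → ℤˣ) : ρ e = ∑ s, ch K s e • Pw ρ s := by
  conv_lhs => rw [← mul_one (ρ e), ← sum_Pw ρ h2, Finset.mul_sum]
  exact Finset.sum_congr rfl fun s _ => rho_Pw ρ s e

/-- a vector of weight `s` -/
def Wt (s : Fin n → ℤˣ) (v : Fin n → K) : Prop := ∀ e, ρ e *ᵥ v = ch K s e • v

lemma wt_Pw (s : Fin n → ℤˣ) (u : Fin n → K) : Wt ρ s (Pw ρ s *ᵥ u) := by
  intro e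
  rw [mulVec_mulVec, rho_Pw, smul_mulVec]

lemma Pw_wt (h2 : (2 : K) ≠ 0) {s t : Fin n → ℤˣ} {v : Fin n → K} (hv : Wt ρ t v) :
    Pw ρ s *ᵥ v = if s = t then v else 0 := by
  unfold Pw
  rw [smul_mulVec, Matrix.sum_mulVec]
  have h1 : ∀ e : Fin n → ℤˣ, (ch K s e • ρ e) *ᵥ v = (ch K s e * ch K t e) • v := by
    intro e
    rw [smul_mulVec, hv e, smul_smul]
  simp only [h1]
  rw [← Finset.sum_smul, smul_smul, ch_sum]
  split_ifs with h
  · rw [inv_mul_cancel₀ (pow_ne_zero n h2), one_smul]
  · rw [mul_zero, zero_smul]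

open Classical in
/-- simultaneous diagonalization -/
theorem exists_data (h2 : (2 : K) ≠ 0) (hinj : Function.Injective ρ) :
    ∃ (v : Fin n → (Fin n → K)) (g : (Fin n → ℤˣ) → (Fin n → ℤˣ)), LinearIndependent K v ∧
      Function.Bijective g ∧ ∀ e s, ρ e *ᵥ v s = ((g e s : ℤ) : K) • v s := by
  set X : Finset (Fin n → ℤˣ) := Finset.univ.filter (fun s => Pw ρ s ≠ 0) with hX
  have hv : ∀ s : X, ∃ v : Fin n → K, v ≠ 0 ∧ Wt ρ s v := by
    rintro ⟨s, hs⟩
    have h1 : Pw ρ s ≠ 0 := (Finset.mem_filter.1 hs).2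
    obtain ⟨j, hj⟩ : ∃ j, Pw ρ s *ᵥ Pi.single j 1 ≠ 0 := by
      by_contra h
      apply h1
      ext i j
      have h3 : Pw ρ s *ᵥ Pi.single j 1 = 0 := by
        by_contra h4
        exact h ⟨j, h4⟩
      have := congrFun h3 i
      rwa [mulVec_single_one, col_apply] at this
    exact ⟨_, hj, wt_Pw ρ s _⟩
  choose v hv0 hvw using hv
  have hli : LinearIndependent K v := by
    rw [Fintype.linearIndependent_iff]
    intro g hg t
    have h3 := congrArg (fun x => Pw ρ t *ᵥ x) hg
    simp only [Matrix.mulVec_sum, Matrix.mulVec_smul, mulVec_zero] at h3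
    rw [Finset.sum_eq_single t] at h3
    · rw [Pw_wt ρ h2 (hvw t), if_pos rfl] at h3
      exact (smul_eq_zero.1 h3).resolve_right (hv0 t)
    · intro s _ hs
      rw [Pw_wt ρ h2 (hvw s), if_neg (fun h => hs (Subtype.ext h.symm)), smul_zero]
    · intro h
      exact absurd (Finset.mem_univ _) h
  have hle : X.card ≤ n := by
    have := hli.fintype_card_le_finrank
    simpa using this
  -- the sign function
  have hsg : ∀ e : Fin n → ℤˣ, ∃ g : X → ℤˣ, ∀ s : X, ch K s.1 e = ((g s : ℤ) : K) := by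
    intro e
    refine ⟨fun s => if ch K s.1 e = 1 then 1 else -1, fun s => ?_⟩
    show _ = (((if ch K s.1 e = 1 then 1 else -1 : ℤˣ) : ℤ) : K)
    by_cases h : ch K s.1 e = 1
    · simp [h]
    · rw [if_neg h]
      rcases ch_pm (K := K) s.1 e with h3 | h3
      · exact absurd h3 h
      · rw [h3]
        simp
  choose g hg using hsg
  have hginj : Function.Injective g := by
    intro e e' h
    apply hinj
    rw [rho_sum ρ h2 e, rho_sum ρ h2 e']
    refine Finset.sum_congr rfl fun s _ => ?_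
    by_cases hs : Pw ρ s = 0
    · rw [hs, smul_zero, smul_zero]
    · have h3 := hg e ⟨s, by simp [hX, hs]⟩
      have h4 := hg e' ⟨s, by simp [hX, hs]⟩
      rw [h, ← h4] at h3
      exact congrArg (· • Pw ρ s) h3
  have hcardu : Fintype.card ℤˣ = 2 := rfl
  have hcard : 2 ^ n ≤ 2 ^ X.card := by
    have h3 := Fintype.card_le_of_injective g hginj
    rw [Fintype.card_fun, Fintype.card_fun, hcardu, Fintype.card_fin, Fintype.card_coe] at h3
    exact h3
  have hXn : X.card = n := le_antisymm hle ((Nat.pow_le_pow_iff_right (by norm_num)).1 hcard)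
  have hgb : Function.Bijective g := by
    rw [Fintype.bijective_iff_injective_and_card]
    refine ⟨hginj, ?_⟩
    rw [Fintype.card_fun, Fintype.card_fun, hcardu, Fintype.card_fin, Fintype.card_coe, hXn]
  let φ : Fin n ≃ X := (finCongr hXn).symm.trans X.equivFin.symm
  refine ⟨fun s => v (φ s), fun e s => g e (φ s), hli.comp φ φ.injective, ?_, fun e s => ?_⟩
  · have h5 : (fun e s => g e (φ s)) = (Equiv.arrowCongr φ.symm (Equiv.refl ℤˣ)) ∘ g := by
      funext e s
      rfl
    rw [h5]
    exact (Equiv.bijective _).comp hgb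
  · rw [hvw (φ s) e, hg e (φ s)]

/-- `1 - A` has rank one -/
def IsR (A : Matrix (Fin n) (Fin n) K) : Prop :=
  A ≠ 1 ∧ ∃ w : Fin n → K, ∀ u, ∃ c : K, A *ᵥ u = u - c • w

variable {ρ}

lemma cast_neg : (((-1 : ℤˣ) : ℤ) : K) = -1 := by simp

lemma spans {v : Fin n → (Fin n → K)} (hli : LinearIndependent K v) (u : Fin n → K) :
    ∃ c : Fin n → K, u = ∑ s, c s • v s := by
  have h3 : Submodule.span K (Set.range v) = ⊤ := by
    rcases Nat.eq_zero_or_pos n with hn | hn
    · subst hn
      rw [eq_top_iff]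
      intro x _
      rw [Subsingleton.elim x 0]
      exact zero_mem _
    · have : Nonempty (Fin n) := ⟨⟨0, hn⟩⟩
      exact hli.span_eq_top_of_card_eq_finrank (by simp)
  have h4 : u ∈ Submodule.span K (Set.range v) := by rw [h3]; trivial
  obtain ⟨c, hc⟩ := (Submodule.mem_span_range_iff_exists_fun K).1 h4
  exact ⟨c, hc.symm⟩

lemma isR_of (h2 : (2 : K) ≠ 0) {v : Fin n → (Fin n → K)} {g : (Fin n → ℤˣ) → (Fin n → ℤˣ)}
    (hli : LinearIndependent K v) (h : ∀ e s, ρ e *ᵥ v s = ((g e s : ℤ) : K) • v s)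
    {e : Fin n → ℤˣ} {s0 : Fin n} (he : ∀ s, g e s = if s = s0 then -1 else 1) : IsR (ρ e) := by
  refine ⟨?_, v s0, fun u => ?_⟩
  · intro h1
    have h3 := h e s0
    rw [h1, one_mulVec, he, if_pos rfl, cast_neg] at h3
    have h4 : (2 : K) • v s0 = 0 := by
      rw [two_smul]
      nth_rewrite 1 [h3]
      module
    exact hli.ne_zero s0 ((smul_eq_zero.1 h4).resolve_left h2)
  · obtain ⟨c, hc⟩ := spans hli u
    refine ⟨2 * c s0, ?_⟩
    conv_lhs => rw [hc]
    rw [Matrix.mulVec_sum]
    have h3 : ∀ s, ρ e *ᵥ (c s • v s) =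
        c s • v s - (if s = s0 then (2 * c s0) • v s0 else 0) := by
      intro s
      rw [mulVec_smul, h e s, he]
      split_ifs with h4
      · subst h4
        rw [cast_neg]
        module
      · simp
    simp only [h3]
    rw [Finset.sum_sub_distrib, ← hc, Finset.sum_ite_eq' Finset.univ, if_pos (Finset.mem_univ _)]

lemma of_isR (h2 : (2 : K) ≠ 0) {v : Fin n → (Fin n → K)} {g : (Fin n → ℤˣ) → (Fin n → ℤˣ)}
    (hli : LinearIndependent K v) (h : ∀ e s, ρ e *ᵥ v s = ((g e s : ℤ) : K) • v s)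
    {e : Fin n → ℤˣ} (he : IsR (ρ e)) : ∃ s0 : Fin n, ∀ s, g e s = if s = s0 then -1 else 1 := by
  obtain ⟨h1, w, hw⟩ := he
  have hex : ∃ s, g e s = -1 := by
    by_contra hno
    apply h1
    have h3 : ∀ s, g e s = 1 := fun s => (units_cases _).resolve_right fun h4 => hno ⟨s, h4⟩
    have h5 : ∀ u, ρ e *ᵥ u = u := by
      intro u
      obtain ⟨c, hc⟩ := spans hli u
      conv_lhs => rw [hc]
      rw [Matrix.mulVec_sum]
      conv_rhs => rw [hc]
      refine Finset.sum_congr rfl fun s _ => ?_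
      rw [mulVec_smul, h e s, h3]
      simp
    ext i j
    have h6 := congrFun (h5 (Pi.single j 1)) i
    rw [mulVec_single_one, col_apply] at h6
    rw [h6, Pi.single_apply, one_apply]
  obtain ⟨s0, hs0⟩ := hex
  refine ⟨s0, fun t => ?_⟩
  by_cases hts : t = s0
  · rw [if_pos hts, hts, hs0]
  · rw [if_neg hts]
    refine (units_cases _).resolve_right fun ht => ?_
    have hz : ∀ r, g e r = -1 → ∃ c : K, v r = c • w := by
      intro r hr
      obtain ⟨c, hc⟩ := hw (v r)
      rw [h e r, hr, cast_neg] at hc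
      refine ⟨2⁻¹ * c, ?_⟩
      have h4 : (2 : K) • v r = c • w := by
        have h5 : c • w = v r - (-1 : K) • v r := by rw [hc, sub_sub_cancel]
        rw [h5]
        module
      rw [mul_smul, ← h4, smul_smul, inv_mul_cancel₀ h2, one_smul]
    obtain ⟨a, ha⟩ := hz s0 hs0
    obtain ⟨b, hb⟩ := hz t ht
    have h7 : b • v s0 = a • v t := by
      rw [ha, hb, smul_smul, smul_smul, mul_comm]
    have h8 := (Fintype.linearIndependent_iff.1 hli)
      (fun s => if s = s0 then b else if s = t then -a else 0) (by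
        have h9 : ∀ s, (if s = s0 then b else if s = t then -a else 0) • v s =
            (if s = s0 then b • v s0 else 0) + (if s = t then (-a) • v t else 0) := by
          intro s
          by_cases h10 : s = s0
          · subst h10
            rw [if_pos rfl, if_pos rfl, if_neg (Ne.symm hts), add_zero]
          · rw [if_neg h10, if_neg h10, zero_add]
            by_cases h11 : s = t
            · subst h11
              rw [if_pos rfl, if_pos rfl]
            · rw [if_neg h11, if_neg h11, zero_smul]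
        simp only [h9]
        rw [Finset.sum_add_distrib, Finset.sum_ite_eq' Finset.univ, Finset.sum_ite_eq' Finset.univ,
          if_pos (Finset.mem_univ _), if_pos (Finset.mem_univ _), h7, neg_smul, add_neg_cancel]) t
    rw [if_neg hts, if_pos rfl, neg_eq_zero] at h8
    exact hli.ne_zero s0 (by rw [ha, h8, zero_smul])

end rep

end Vale.Agent.P240.R2.H329
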