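import Vale.Agent.P240.R2.H329.OA1
import Mathlib.LinearAlgebra.Matrix.ToLinearEquiv
import Mathlib.Data.Nat.Choose.Sum
import Mathlib.Data.Finset.Powerset

/-!
If a layer of a faithful representation of the group `{1, -1} ^ n` in dimension `n` consists of
elements of the same type, the coordinate elements are reflections.
-/

set_option autoImplicit false

namespace Vale.Agent.P240.R2.H329

open Finset Matrix

lemma choose_gt {n : ℕ} (hn : 4 ≤ n) : ∀ k, 2 ≤ k → k + 2 ≤ n → n < n.choose k := by
  induction n, hn using Nat.le_induction with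
  | base =>
    intro k h1 h2
    have : k = 2 := by omega
    subst this
    decide
  | succ n hn ih =>
    intro k h1 h2
    obtain ⟨j, rfl⟩ : ∃ j, k = j + 1 := ⟨k - 1, by omega⟩
    rw [Nat.choose_succ_succ']
    rcases Nat.lt_or_ge (j + 1 + 2) (n + 1) with h3 | h3
    · have h4 := ih (j + 1) h1 (by omega)
      have h5 : 0 < n.choose j := Nat.choose_pos (by omega)
      omega
    · have h4 := ih j (by omega) (by omega)
      have h5 : 0 < n.choose (j + 1) := Nat.choose_pos (by omega)
      omega

section

variable {K : Type*} [Field K] {n : ℕ} {ρ : (Fin n → ℤˣ) →* Matrix (Fin n) (Fin n) K}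

/-- the weight of a sign vector -/
def wt (e : Fin n → ℤˣ) : ℕ := (Finset.univ.filter (fun i => e i = -1)).card

/-- the coordinate sign vector -/
def sg (i : Fin n) : Fin n → ℤˣ := fun j => if j = i then -1 else 1

/-- the sign vector of a set -/
def sv (T : Finset (Fin n)) : Fin n → ℤˣ := fun j => if j ∈ T then -1 else 1

lemma wt_sv (T : Finset (Fin n)) : wt (sv T) = T.card := by
  unfold wt sv
  congr 1
  ext i
  by_cases h : i ∈ T <;> simp [h]

lemma wt_sg (i : Fin n) : wt (sg i) = 1 := by
  have : sg i = sv {i} := by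
    funext j
    simp [sg, sv]
  rw [this, wt_sv, Finset.card_singleton]

lemma sv_inj : Function.Injective (sv (n := n)) := by
  intro S T h
  ext i
  have h1 := congrFun h i
  by_cases h2 : i ∈ S <;> by_cases h3 : i ∈ T <;> simp_all [sv]

lemma sv_filter (e : Fin n → ℤˣ) : sv (Finset.univ.filter (fun i => e i = -1)) = e := by
  funext i
  unfold sv
  rcases units_cases (e i) with h | h <;> simp [h]

lemma prod_sv (T : Finset (Fin n)) : ∏ i, ((sv T i : ℤ) : K) = (-1) ^ T.card := by
  have h1 : ∀ i, ((sv T i : ℤ) : K) = if i ∈ T then -1 else 1 := by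
    intro i
    unfold sv
    split_ifs <;> simp
  simp only [h1]
  rw [Finset.prod_ite_mem, Finset.univ_inter, Finset.prod_const]

lemma det_isR (h2 : (2 : K) ≠ 0) {v : Fin n → (Fin n → K)} {g : (Fin n → ℤˣ) → (Fin n → ℤˣ)}
    (hli : LinearIndependent K v) (h : ∀ e s, ρ e *ᵥ v s = ((g e s : ℤ) : K) • v s)
    (e : Fin n → ℤˣ) : (ρ e).det = ∏ s, ((g e s : ℤ) : K) := by
  let V : Matrix (Fin n) (Fin n) K := Matrix.of fun i s => v s i
  have hV : V.det ≠ 0 := by
    intro h0
    obtain ⟨c, hc, hc'⟩ := Matrix.exists_mulVec_eq_zero_iff.2 h0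
    apply hc
    funext t
    refine (Fintype.linearIndependent_iff.1 hli) c ?_ t
    funext i
    have := congrFun hc' i
    simp only [Matrix.mulVec, dotProduct, V, Matrix.of_apply, Pi.zero_apply] at this
    rw [Finset.sum_apply, Pi.zero_apply, ← this]
    exact Finset.sum_congr rfl fun s _ => by rw [Pi.smul_apply, smul_eq_mul, mul_comm]
  have h3 : ρ e * V = V * Matrix.diagonal (fun s => ((g e s : ℤ) : K)) := by
    ext i s
    rw [Matrix.mul_diagonal]
    have := congrFun (h e s) i
    simp only [Matrix.mulVec, dotProduct, Pi.smul_apply, smul_eq_mul] at this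
    rw [Matrix.mul_apply]
    show ∑ j, ρ e i j * v s j = v s i * _
    rw [this, mul_comm]
  have h4 := congrArg Matrix.det h3
  rw [Matrix.det_mul, Matrix.det_mul, Matrix.det_diagonal, mul_comm] at h4
  exact mul_left_cancel₀ hV h4

open Classical in
/-- **Main theorem.** -/
theorem frame_main (h2 : (2 : K) ≠ 0) (hinj : Function.Injective ρ) (hn : 5 ≤ n) (hodd : Odd n)
    (hdet : ∀ e, (ρ e).det = ∏ i, ((e i : ℤ) : K)) (hall : ρ (fun _ => -1) = -1)
    (hlay : ∀ e e' : Fin n → ℤˣ, wt e = wt e' → IsR (ρ e) → IsR (ρ e')) :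
    ∃ v : Fin n → (Fin n → K), LinearIndependent K v ∧
      ∀ i j, ρ (sg i) *ᵥ v j = if j = i then - v j else v j := by
  obtain ⟨v, g, hli, hgb, h⟩ := exists_data ρ h2 hinj
  obtain ⟨x0, x1, hx⟩ : ∃ a b : Fin n, b ≠ a :=
    ⟨⟨0, by omega⟩, ⟨1, by omega⟩, by simp [Fin.ext_iff]⟩
  obtain ⟨e0, he0⟩ := hgb.2 (sg x0)
  have hR0 : IsR (ρ e0) := isR_of h2 hli h (s0 := x0) (fun s => by rw [he0]; rfl)
  -- the weight of `e0`
  set k := wt e0 with hk
  have hk0 : k ≠ 0 := by
    intro h0
    apply hR0.1
    have h3 : Finset.univ.filter (fun i => e0 i = -1) = ∅ := Finset.card_eq_zero.1 h0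
    have h4 : e0 = 1 := by
      rw [← sv_filter e0, h3]
      funext i
      simp [sv]
    rw [h4, map_one]
  have hkn : k ≤ n := by
    have := Finset.card_le_univ (Finset.univ.filter (fun i => e0 i = -1))
    simpa [hk, wt] using this
  have hkn' : k ≠ n := by
    intro h0
    have h3 : Finset.univ.filter (fun i => e0 i = -1) = Finset.univ := by
      apply Finset.eq_univ_of_card
      rw [Fintype.card_fin]
      exact h0
    have h4 : e0 = fun _ => -1 := by
      rw [← sv_filter e0, h3]
      funext i
      simp [sv]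
    have h5 := h e0 x1
    have h6 : sg x0 x1 = 1 := by simp [sg, hx]
    rw [he0, h6, h4, hall, Matrix.neg_mulVec, one_mulVec] at h5
    have h7 : (2 : K) • v x1 = 0 := by
      rw [two_smul]
      nth_rewrite 1 [← neg_neg (v x1)]
      rw [h5]
      simp
    exact hli.ne_zero _ ((smul_eq_zero.1 h7).resolve_left h2)
  have hkodd : Odd k := by
    have h3 : (ρ e0).det = -1 := by
      rw [det_isR h2 hli h, he0]
      have h4 : sg x0 = sv {x0} := by
        funext j
        simp [sg, sv]
      rw [h4, prod_sv, Finset.card_singleton, pow_one]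
    rw [hdet, ← sv_filter e0, prod_sv] at h3
    by_contra hev
    rw [Nat.not_odd_iff_even] at hev
    have h5 : ((-1 : K)) ^ k = 1 := hev.neg_one_pow
    have h6 : (1 : K) = -1 := h5.symm.trans h3
    apply h2
    linear_combination h6
  -- counting
  have hcount : n.choose k ≤ n := by
    have hs : ∀ T : {T : Finset (Fin n) // T ∈ Finset.powersetCard k Finset.univ},
        ∃ s0 : Fin n, ∀ s, g (sv T.1) s = if s = s0 then -1 else 1 := by
      rintro ⟨T, hT⟩
      refine of_isR h2 hli h (hlay e0 _ ?_ hR0)
      rw [wt_sv, (Finset.mem_powersetCard.1 hT).2]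
    choose f hf using hs
    have hfi : Function.Injective f := by
      intro S T hST
      apply Subtype.ext
      apply sv_inj
      apply hgb.1
      funext s
      rw [hf S s, hf T s, hST]
    have := Fintype.card_le_of_injective f hfi
    rw [Fintype.card_fin, Fintype.card_coe, Finset.card_powersetCard, Finset.card_univ,
      Fintype.card_fin] at this
    exact this
  have hk1 : k = 1 := by
    by_contra hk1
    have h3 : k + 2 ≤ n := by
      obtain ⟨a, ha⟩ := hkodd
      obtain ⟨b, hb⟩ := hodd
      omega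
    have := choose_gt (by omega : 4 ≤ n) k (by omega) h3
    omega
  -- reordering
  have hs : ∀ i : Fin n, ∃ s0 : Fin n, ∀ s, g (sg i) s = if s = s0 then -1 else 1 := by
    intro i
    exact of_isR h2 hli h (hlay e0 _ (by rw [wt_sg, ← hk1]) hR0)
  choose f hf using hs
  have hfi : Function.Injective f := by
    intro i j hij
    have h3 : sg i = sg j := by
      apply hgb.1
      funext s
      rw [hf i s, hf j s, hij]
    by_contra hne
    have h4 := congrFun h3 i
    simp [sg, hne] at h4
  refine ⟨fun j => v (f j), hli.comp f hfi, fun i j => ?_⟩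
  show ρ (sg i) *ᵥ v (f j) = _
  rw [h, hf i (f j)]
  by_cases hij : j = i
  · subst hij
    simp
  · rw [if_neg (fun h5 => hij (hfi h5)), if_neg hij]
    simp

end

end Vale.Agent.P240.R2.H329
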