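import Vale.Agent.P240.R2.H329.OA2
import Vale.Agent.P240.R2.H651.GenQ
import Vale.Agent.P240.R2.H296.ORef
import Mathlib.GroupTheory.SpecificGroups.Alternating
import Mathlib.LinearAlgebra.Matrix.Permutation

/-!
P240: sign vectors and even permutations in `Ω_n(q)`, `n` odd.
-/

set_option autoImplicit false
set_option linter.unusedSectionVars false

namespace Vale.Agent.P240.R2.H329

open Matrix Vale.Agent.P240.R2.AS Subgroup
open Vale.Agent.P240.R2.H296.O (ab ab_eq_one)

universe u

noncomputable section

section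
variable {K : Type u} [Field K] [StarRing K] {n : ℕ}

lemma gmul (a b : GU K n) : (a * b).1 = a.1 * b.1 := rfl

lemma ginv (a : GU K n) : (a⁻¹).1 = star a.1 := rfl

end

variable {K : Type u} [Field K] [Fintype K] [StarRing K] {n : ℕ}

/-- the diagonal matrix of a sign vector -/
def dl (K : Type u) [Field K] [StarRing K] (n : ℕ) : (Fin n → ℤˣ) →* GU K n where
  toFun e := ⟨Matrix.diagonal (fun i => ((e i : ℤ) : K)), by
    rw [Matrix.mem_unitaryGroup_iff, star_eq_conjTranspose, Matrix.diagonal_conjTranspose,
      Matrix.diagonal_mul_diagonal, ← Matrix.diagonal_one]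
    congr 1
    funext i
    show ((e i : ℤ) : K) * star ((e i : ℤ) : K) = 1
    rw [star_intCast]
    rcases units_cases (e i) with h | h <;> simp [h]⟩
  map_one' := by
    apply Subtype.ext
    show Matrix.diagonal _ = (1 : Matrix (Fin n) (Fin n) K)
    rw [← Matrix.diagonal_one]
    congr 1
    funext i
    simp
  map_mul' a b := by
    apply Subtype.ext
    show Matrix.diagonal _ = Matrix.diagonal _ * Matrix.diagonal _
    rw [Matrix.diagonal_mul_diagonal]
    congr 1
    funext i
    simp

lemma dl_coe (e : Fin n → ℤˣ) : (dl K n e).1 = Matrix.diagonal (fun i => ((e i : ℤ) : K)) := rfl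

lemma dl_det (e : Fin n → ℤˣ) : (dl K n e).1.det = ∏ i, ((e i : ℤ) : K) := by
  rw [dl_coe, Matrix.det_diagonal]

lemma dl_neg : (dl K n (fun _ => -1)).1 = (-1 : K) • (1 : Matrix (Fin n) (Fin n) K) := by
  rw [dl_coe]
  ext i j
  rw [Matrix.smul_apply, Matrix.one_apply, Matrix.diagonal_apply]
  split_ifs <;> simp

lemma dl_sg (i : Fin n) :
    dl K n (sg i) = eU (-1) (sm [H651.E (K := K) i]) := by
  apply Subtype.ext
  have h1 : star (sm [H651.E (K := K) i]) = sm [H651.E i] ∧ sm [H651.E (K := K) i] * sm [H651.E i] =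
      sm [H651.E i] ∧ (-1 : K) * star (-1) = 1 := by
    rw [H221.sm_cons', sm]
    simp only [List.map_nil, List.sum_nil, add_zero]
    exact ⟨(H221.ln_cond _).1, (H221.ln_cond _).2, by simp⟩
  rw [eU, dif_pos h1, dl_coe]
  show _ = 1 + ((-1 : K) - 1) • sm [H651.E i]
  rw [H221.sm_cons', sm]
  simp only [List.map_nil, List.sum_nil, add_zero]
  show _ = 1 + ((-1 : K) - 1) • Matrix.single i i 1
  ext a b
  rw [Matrix.diagonal_apply, Matrix.add_apply, Matrix.smul_apply, Matrix.one_apply,
    Matrix.single_apply]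
  unfold sg
  by_cases h : a = b
  · subst h
    by_cases h3 : a = i
    · subst h3
      simp
    · have h4 : ¬ (i = a ∧ i = a) := fun h5 => h3 h5.1.symm
      simp [h3, Ne.symm h3]
  · have h4 : ¬ (i = a ∧ i = b) := fun h5 => h (h5.1.symm.trans h5.2)
    simp [h, h4]

/-- diagonal sign matrices lie in `Ω_n(q)` -/
lemma dl_mem (hs : ∀ x : K, star x = x) (hq : Odd (Nat.card K)) (hodd : Odd n)
    (e : Fin n → ℤˣ) : (QuotientGroup.mk (dl K n e) : PGU K n) ∈ commutator (PGU K n) := by
  rw [← ab_eq_one]
  have h1 : ∀ i : Fin n, ab K n (dl K n (sg i)) = 1 := by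
    intro i
    rw [ab_eq_one, dl_sg]
    exact H221.stmtB3 K hs hq n hodd [H651.E i] (by simp [Orth])
  have h2 : e = ∏ i, Pi.mulSingle i (e i) := (Finset.univ_prod_mulSingle e).symm
  show ((ab K n).comp (dl K n)) e = 1
  rw [h2, map_prod]
  refine Finset.prod_eq_one fun i _ => ?_
  rcases units_cases (e i) with h3 | h3
  · rw [h3, Pi.mulSingle_one, map_one]
  · have h4 : (Pi.mulSingle i (e i) : Fin n → ℤˣ) = sg i := by
      rw [h3]
      funext j
      by_cases hj : j = i
      · subst hj
        simp [sg]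
      · simp [sg, hj]
    rw [h4]
    exact h1 i

/-- permutation matrices -/
def pm (K : Type u) [Field K] [StarRing K] (n : ℕ) : Equiv.Perm (Fin n) →* GU K n where
  toFun π := ⟨Matrix.of fun i j => if i = π j then 1 else 0, by
    rw [Matrix.mem_unitaryGroup_iff']
    ext i j
    rw [Matrix.mul_apply, Matrix.one_apply]
    simp only [Matrix.star_apply, Matrix.of_apply]
    rw [Finset.sum_eq_single (π i)]
    · by_cases h : i = j
      · subst h
        simp
      · rw [if_pos rfl, if_neg (fun h3 => h (π.injective h3)), if_neg h]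
        simp
    · intro k _ hk
      rw [if_neg hk]
      simp
    · intro h
      exact absurd (Finset.mem_univ _) h⟩
  map_one' := by
    apply Subtype.ext
    ext i j
    show (if i = j then (1 : K) else 0) = _
    rw [show (1 : GU K n).1 = (1 : Matrix (Fin n) (Fin n) K) from rfl, Matrix.one_apply]
  map_mul' π τ := by
    apply Subtype.ext
    rw [gmul]
    ext i j
    rw [Matrix.mul_apply]
    show (if i = π (τ j) then (1 : K) else 0) = ∑ k, (if i = π k then (1 : K) else 0) *
      (if k = τ j then 1 else 0)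
    rw [Finset.sum_eq_single (τ j)]
    · simp
    · intro k _ hk
      rw [if_neg hk, mul_zero]
    · intro h
      exact absurd (Finset.mem_univ _) h

lemma pm_coe (π : Equiv.Perm (Fin n)) (i j : Fin n) :
    (pm K n π).1 i j = if i = π j then 1 else 0 := rfl

lemma pm_conj (π : Equiv.Perm (Fin n)) (e : Fin n → ℤˣ) :
    pm K n π * dl K n e * (pm K n π)⁻¹ = dl K n (fun i => e (π.symm i)) := by
  rw [mul_inv_eq_iff_eq_mul]
  apply Subtype.ext
  rw [gmul, gmul, dl_coe, dl_coe]
  ext i j
  rw [Matrix.mul_diagonal, Matrix.diagonal_mul, pm_coe]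
  by_cases h : i = π j
  · subst h
    simp
  · simp [h]

lemma pm_mem {π : Equiv.Perm (Fin n)} (hπ : π ∈ alternatingGroup (Fin n)) :
    (QuotientGroup.mk (pm K n π) : PGU K n) ∈ commutator (PGU K n) := by
  rw [← ab_eq_one]
  rw [← Equiv.Perm.closure_three_cycles_eq_alternating] at hπ
  refine Subgroup.closure_induction (p := fun π _ => ab K n (pm K n π) = 1) ?_ ?_ ?_ ?_ hπ
  · intro σ hσ
    have hσ' : σ.IsThreeCycle := hσ
    have h1 : IsConj σ σ⁻¹ := by
      rw [Equiv.Perm.isConj_iff_cycleType_eq, Equiv.Perm.cycleType_inv]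
    obtain ⟨τ, hτ⟩ := isConj_iff.1 h1
    have h3 : σ ^ 3 = 1 := by
      rw [← hσ'.orderOf]
      exact pow_orderOf_eq_one σ
    have h4 := congrArg (fun x => ab K n (pm K n x)) hτ
    simp only [map_mul, map_inv] at h4
    rw [mul_comm, inv_mul_cancel_left] at h4
    have h5 := congrArg (fun x => ab K n (pm K n x)) h3
    simp only [map_pow, map_one] at h5
    have h6 : (ab K n (pm K n σ)) ^ 2 = 1 := by
      rw [pow_two]
      nth_rewrite 1 [h4]
      exact inv_mul_cancel _
    calc ab K n (pm K n σ) = (ab K n (pm K n σ)) ^ 3 * ((ab K n (pm K n σ)) ^ 2)⁻¹ := by group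
      _ = 1 := by rw [h5, h6, inv_one, one_mul]
  · rw [map_one, map_one]
  · intro x y _ _ hx hy
    rw [map_mul, map_mul, hx, hy, one_mul]
  · intro x _ hx
    rw [map_inv, map_inv, hx, inv_one]

/-- an even permutation that maps a set to a set of the same size -/
lemma exists_even (hn : 3 ≤ n) {e e' : Fin n → ℤˣ} (h : wt e = wt e') :
    ∃ π ∈ alternatingGroup (Fin n), ∀ i, e' i = e (π.symm i) := by
  classical
  have h1 : ∃ π : Equiv.Perm (Fin n), ∀ i, e' i = e (π.symm i) := by
    have h3 : (Finset.univ.filter (fun i => e i = -1)).card =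
      (Finset.univ.filter (fun i => e' i = -1)).card := h
    have h4 : Fintype.card {i // e i = -1} = Fintype.card {i // e' i = -1} := by
      rw [Fintype.card_subtype, Fintype.card_subtype]
      exact h3
    let φ : {i // e i = -1} ≃ {i // e' i = -1} := Fintype.equivOfCardEq h4
    refine ⟨φ.extendSubtype, fun i => ?_⟩
    set j := φ.extendSubtype.symm i with hj
    have hij : φ.extendSubtype j = i := by rw [hj, Equiv.apply_symm_apply]
    rw [← hij]
    by_cases h5 : e j = -1
    · rw [h5]
      exact φ.extendSubtype_mem j h5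
    · have h6 := φ.extendSubtype_not_mem j h5
      rw [(units_cases (e j)).resolve_right h5]
      exact (units_cases _).resolve_right h6
  obtain ⟨π, hπ⟩ := h1
  by_cases hev : π ∈ alternatingGroup (Fin n)
  · exact ⟨π, hev, hπ⟩
  · obtain ⟨a, b, hab, he⟩ : ∃ a b : Fin n, a ≠ b ∧ e a = e b := by
      by_contra hno
      push Not at hno
      have h3 : Function.Injective e := by
        intro a b hab
        by_contra hne
        exact hno a b hne hab
      have h4 := Fintype.card_le_of_injective e h3
      rw [Fintype.card_fin, show Fintype.card ℤˣ = 2 from rfl] at h4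
      omega
    refine ⟨π * Equiv.swap a b, ?_, fun i => ?_⟩
    · rw [Equiv.Perm.mem_alternatingGroup, map_mul, Equiv.Perm.sign_swap hab]
      rw [Equiv.Perm.mem_alternatingGroup] at hev
      rw [(Int.units_eq_one_or (Equiv.Perm.sign π)).resolve_left hev]
      rfl
    · rw [hπ]
      show e (π.symm i) = e ((Equiv.swap a b).symm (π.symm i))
      rw [Equiv.symm_swap]
      by_cases h3 : π.symm i = a
      · rw [h3, Equiv.swap_apply_left, he]
      · by_cases h4 : π.symm i = b
        · rw [h4, Equiv.swap_apply_right, he]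
        · rw [Equiv.swap_apply_of_ne_of_ne h3 h4]

end

end Vale.Agent.P240.R2.H329
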