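import Vale.Agent.P240.R2.H329.OA3

/-!
P240: the image of the group of a frame under an automorphism of `Ω_n(q)`, `n` odd.
-/

set_option autoImplicit false
set_option linter.unusedSectionVars false

namespace Vale.Agent.P240.R2.H329

open Matrix Vale.Agent.P240.R2.AS Subgroup
open Vale.Agent.P240.R2.H296.O (ab ab_eq_one gu_hf)
open Vale.Agent.P240.R2.H387 (hf hf_add_left hf_add_right hf_smul_left hf_smul_right hf_zero_left
  hf_zero_right)
open Vale.Agent.P240.R2.H651 (omI omI_surj OmS)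

universe u

noncomputable section

variable {K : Type u} [Field K] [Fintype K] [StarRing K] {n : ℕ}

lemma det_sq (hs : ∀ x : K, star x = x) (a : GU K n) : a.1.det * a.1.det = 1 := by
  have h1 := congrArg Matrix.det (mem_unitaryGroup_iff.1 a.2)
  rw [det_mul, det_one, star_eq_conjTranspose, det_conjTranspose, hs] at h1
  exact h1

lemma scal_one (hs : ∀ x : K, star x = x) (hodd : Odd n) {c : GU K n} {l : K}
    (hl : c.1 = l • (1 : Matrix (Fin n) (Fin n) K)) (hd : c.1.det = 1) : c = 1 := by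
  have hn : 0 < n := hodd.pos
  have h1 := mem_unitaryGroup_iff.1 c.2
  rw [hl, star_smul, star_one, hs, Matrix.smul_mul, Matrix.one_mul, smul_smul] at h1
  have h2 : l * l = 1 := by
    have := congrFun (congrFun h1 ⟨0, hn⟩) ⟨0, hn⟩
    simpa using this
  rw [hl, det_smul, det_one, mul_one, Fintype.card_fin] at hd
  obtain ⟨m, hm⟩ := hodd
  rw [hm, pow_succ, pow_mul, pow_two, h2, one_pow, one_mul] at hd
  apply Subtype.ext
  rw [hl, hd, one_smul]
  rfl

lemma mk_one_iff (hs : ∀ x : K, star x = x) (hq : Odd (Nat.card K)) (h7 : 7 ≤ Nat.card K)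
    (g : GU K n) :
    (QuotientGroup.mk g : PGU K n) = 1 ↔ ∃ l : K, g.1 = l • (1 : Matrix (Fin n) (Fin n) K) :=
  H651.center_scal (H651.scal_of_fix_o (n := n) hs hq (by omega)) (H651.two_ne hq) g

/-- the lift of given determinant is unique -/
lemma eq_of_mk (hs : ∀ x : K, star x = x) (hq : Odd (Nat.card K)) (h7 : 7 ≤ Nat.card K)
    (hodd : Odd n) {a b : GU K n} (h : (QuotientGroup.mk a : PGU K n) = QuotientGroup.mk b)
    (hd : a.1.det = b.1.det) : a = b := by
  have h1 : (QuotientGroup.mk (a⁻¹ * b) : PGU K n) = 1 := by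
    rw [QuotientGroup.mk_mul, QuotientGroup.mk_inv, h, inv_mul_cancel]
  obtain ⟨l, hl⟩ := (mk_one_iff hs hq h7 _).1 h1
  have h2 : (a⁻¹ * b).1.det = 1 := by
    have h3 : a.1 * (a⁻¹ * b).1 = b.1 := by
      rw [← gmul, mul_inv_cancel_left]
    have h4 := congrArg Matrix.det h3
    rw [det_mul, hd] at h4
    have h5 : b.1.det ≠ 0 := fun h6 => by
      have := det_sq hs b
      rw [h6, mul_zero] at this
      exact zero_ne_one this
    exact mul_left_cancel₀ h5 (h4.trans (mul_one _).symm)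
  exact (inv_mul_eq_one.1 (scal_one hs hodd hl h2))

/-- the element of `Ω_n(q)` given by a sign vector -/
def rh (hs : ∀ x : K, star x = x) (hq : Odd (Nat.card K)) (hodd : Odd n) :
    (Fin n → ℤˣ) →* OmS K n where
  toFun e := ⟨dl K n e, dl_mem hs hq hodd e⟩
  map_one' := Subtype.ext (map_one _)
  map_mul' a b := Subtype.ext (map_mul _ a b)

lemma neg_pow_odd (hodd : Odd n) : ∏ i : Fin n, (((fun _ => -1 : Fin n → ℤˣ) i : ℤ) : K) = -1 := by
  simp [hodd.neg_one_pow]

variable (β : MulAut (Om K n))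

lemma exists_lift (hs : ∀ x : K, star x = x) (hq : Odd (Nat.card K)) (h7 : 7 ≤ Nat.card K)
    (hodd : Odd n) (e : Fin n → ℤˣ) : ∃ g : OmS K n,
      omI K n g = β (omI K n (rh hs hq hodd e)) ∧ g.1.1.det = ∏ i, ((e i : ℤ) : K) := by
  obtain ⟨g, hg⟩ := omI_surj (β (omI K n (rh hs hq hodd e)))
  have h1 := det_sq hs g.1
  have h2 := det_sq hs (dl K n e)
  rw [dl_det] at h2
  have h3 : (g.1.1.det - ∏ i, ((e i : ℤ) : K)) * (g.1.1.det + ∏ i, ((e i : ℤ) : K)) = 0 := by
    linear_combination h1 - h2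
  rcases mul_eq_zero.1 h3 with h4 | h4
  · exact ⟨g, hg, sub_eq_zero.1 h4⟩
  · have h5 : omI K n (rh hs hq hodd (fun _ => -1)) = 1 := by
      apply Subtype.ext
      show SemidirectProduct.inl (QuotientGroup.mk (dl K n (fun _ => -1)) : PGU K n) = 1
      rw [(mk_one_iff hs hq h7 _).2 ⟨-1, dl_neg⟩, map_one]
    refine ⟨g * rh hs hq hodd (fun _ => -1), by rw [map_mul, h5, mul_one, hg], ?_⟩
    show (g.1 * dl K n (fun _ => -1)).1.det = _
    rw [gmul, det_mul, dl_det, neg_pow_odd hodd]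
    linear_combination -h4

/-- the lift -/
def lm (hs : ∀ x : K, star x = x) (hq : Odd (Nat.card K)) (h7 : 7 ≤ Nat.card K)
    (hodd : Odd n) (e : Fin n → ℤˣ) : OmS K n := (exists_lift β hs hq h7 hodd e).choose

lemma lm_om (hs : ∀ x : K, star x = x) (hq : Odd (Nat.card K)) (h7 : 7 ≤ Nat.card K)
    (hodd : Odd n) (e : Fin n → ℤˣ) :
    omI K n (lm β hs hq h7 hodd e) = β (omI K n (rh hs hq hodd e)) :=
  (exists_lift β hs hq h7 hodd e).choose_spec.1

lemma lm_det (hs : ∀ x : K, star x = x) (hq : Odd (Nat.card K)) (h7 : 7 ≤ Nat.card K)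
    (hodd : Odd n) (e : Fin n → ℤˣ) :
    (lm β hs hq h7 hodd e).1.1.det = ∏ i, ((e i : ℤ) : K) :=
  (exists_lift β hs hq h7 hodd e).choose_spec.2

lemma omI_inj {a b : OmS K n} (h : omI K n a = omI K n b) :
    (QuotientGroup.mk a.1 : PGU K n) = QuotientGroup.mk b.1 :=
  SemidirectProduct.inl_inj.1 (congrArg Subtype.val h)

lemma omI_eq {a b : OmS K n} (h : (QuotientGroup.mk a.1 : PGU K n) = QuotientGroup.mk b.1) :
    omI K n a = omI K n b := by
  apply Subtype.ext
  show SemidirectProduct.inl (QuotientGroup.mk a.1 : PGU K n) =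
    SemidirectProduct.inl (QuotientGroup.mk b.1 : PGU K n)
  rw [h]

lemma oms_ext (hs : ∀ x : K, star x = x) (hq : Odd (Nat.card K)) (h7 : 7 ≤ Nat.card K)
    (hodd : Odd n) {a b : OmS K n} (h : omI K n a = omI K n b) (hd : a.1.1.det = b.1.1.det) :
    a = b := Subtype.ext (eq_of_mk hs hq h7 hodd (omI_inj h) hd)

/-- the lift as a homomorphism to matrices -/
def lmM (hs : ∀ x : K, star x = x) (hq : Odd (Nat.card K)) (h7 : 7 ≤ Nat.card K)
    (hodd : Odd n) : (Fin n → ℤˣ) →* Matrix (Fin n) (Fin n) K where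
  toFun e := (lm β hs hq h7 hodd e).1.1
  map_one' := by
    have : lm β hs hq h7 hodd 1 = 1 := by
      apply oms_ext hs hq h7 hodd
      · rw [lm_om, map_one, map_one, map_one]
      · rw [lm_det]
        show _ = (1 : Matrix (Fin n) (Fin n) K).det
        rw [det_one]
        simp
    rw [this]
    rfl
  map_mul' a b := by
    have : lm β hs hq h7 hodd (a * b) = lm β hs hq h7 hodd a * lm β hs hq h7 hodd b := by
      apply oms_ext hs hq h7 hodd
      · rw [lm_om, map_mul, map_mul, map_mul, map_mul, lm_om, lm_om]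
      · show _ = ((lm β hs hq h7 hodd a).1.1 * (lm β hs hq h7 hodd b).1.1).det
        rw [det_mul, lm_det, lm_det, lm_det, ← Finset.prod_mul_distrib]
        refine Finset.prod_congr rfl fun i _ => ?_
        simp
    rw [this]
    rfl

lemma lmM_inj (hs : ∀ x : K, star x = x) (hq : Odd (Nat.card K)) (h7 : 7 ≤ Nat.card K)
    (hodd : Odd n) : Function.Injective (lmM β hs hq h7 hodd) := by
  rw [injective_iff_map_eq_one]
  intro e he
  have h2 := H651.two_ne (K := K) hq
  have h1 : lm β hs hq h7 hodd e = 1 := Subtype.ext (Subtype.ext he)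
  have h3 := lm_om β hs hq h7 hodd e
  rw [h1, map_one] at h3
  have h4 : omI K n (rh hs hq hodd e) = omI K n 1 := by
    rw [map_one]
    exact β.injective (by rw [← h3, map_one])
  have h5 := lm_det β hs hq h7 hodd e
  rw [h1] at h5
  have h6 : rh hs hq hodd e = 1 := by
    apply oms_ext hs hq h7 hodd h4
    show (dl K n e).1.det = _
    rw [dl_det, ← h5]
  have h7' : (dl K n e).1 = (1 : Matrix (Fin n) (Fin n) K) :=
    congrArg (fun x : OmS K n => x.1.1) h6
  funext i
  have h8 := congrFun (congrFun h7' i) i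
  rw [dl_coe, diagonal_apply_eq, one_apply_eq] at h8
  refine (units_cases (e i)).resolve_right fun h9 => h2 ?_
  rw [h9, cast_neg] at h8
  linear_combination -h8

lemma lm_conj (hs : ∀ x : K, star x = x) (hq : Odd (Nat.card K)) (h7 : 7 ≤ Nat.card K)
    (hodd : Odd n) (hn : 3 ≤ n) {e e' : Fin n → ℤˣ} (h : wt e = wt e') :
    ∃ y : GU K n, (lm β hs hq h7 hodd e').1 = y * (lm β hs hq h7 hodd e).1 * y⁻¹ := by
  obtain ⟨π, hπ, hπe⟩ := exists_even hn h
  let x : OmS K n := ⟨pm K n π, pm_mem hπ⟩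
  obtain ⟨y, hy⟩ := omI_surj (β (omI K n x))
  have h1 : rh hs hq hodd e' = x * rh hs hq hodd e * x⁻¹ := by
    apply Subtype.ext
    show dl K n e' = pm K n π * dl K n e * (pm K n π)⁻¹
    rw [pm_conj]
    congr 1
    funext i
    exact hπe i
  refine ⟨y.1, ?_⟩
  have h3 : lm β hs hq h7 hodd e' = y * lm β hs hq h7 hodd e * y⁻¹ := by
    apply oms_ext hs hq h7 hodd
    · rw [lm_om, h1]
      simp only [map_mul, map_inv, lm_om, hy]
    · show _ = (y.1 * (lm β hs hq h7 hodd e).1 * y.1⁻¹).1.det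
      have h4 : (y.1 * y.1⁻¹ : GU K n).1.det = 1 := by
        rw [mul_inv_cancel]
        exact det_one
      rw [gmul, det_mul] at h4
      rw [gmul, gmul, det_mul, det_mul, lm_det, lm_det]
      have h5 : ∏ i, ((e' i : ℤ) : K) = ∏ i, ((e i : ℤ) : K) := by
        have h6 : ∀ i, ((e' i : ℤ) : K) = (fun j => ((e j : ℤ) : K)) (π.symm i) := by
          intro i
          rw [hπe]
        simp only [h6]
        exact Equiv.prod_comp π.symm (fun j => ((e j : ℤ) : K))
      rw [h5]
      linear_combination (-(∏ i, ((e i : ℤ) : K))) * h4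
  exact congrArg Subtype.val h3

lemma isR_conj {y a b : GU K n} (h : b = y * a * y⁻¹) (ha : IsR a.1) : IsR b.1 := by
  obtain ⟨h1, w, hw⟩ := ha
  refine ⟨fun h3 => h1 ?_, y.1 *ᵥ w, fun u => ?_⟩
  · have h4 : b = 1 := Subtype.ext h3
    rw [h4] at h
    have h5 : a = 1 := by
      have : y⁻¹ * 1 * y = a := by rw [h]; group
      rw [← this]; group
    rw [h5]
    rfl
  · obtain ⟨c, hc⟩ := hw ((y⁻¹).1 *ᵥ u)
    refine ⟨c, ?_⟩
    rw [h, gmul, gmul, ← mulVec_mulVec, ← mulVec_mulVec, hc, mulVec_sub, mulVec_smul,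
      mulVec_mulVec, ← gmul, mul_inv_cancel]
    congr 1
    exact one_mulVec u

end

end Vale.Agent.P240.R2.H329
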