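import Vale.Agent.P240.R2.H329.OA4

/-!
P240: an automorphism of `Ω_n(q)`, `n` odd, maps the group of a frame to the group of a frame.
-/

set_option autoImplicit false
set_option linter.unusedSectionVars false

namespace Vale.Agent.P240.R2.H329

open Matrix Vale.Agent.P240.R2.AS Subgroup
open Vale.Agent.P240.R2.H296.O (ab ab_eq_one gu_hf)
open Vale.Agent.P240.R2.H387 (hf hf_add_left hf_add_right hf_smul_left hf_smul_right hf_zero_left
  hf_zero_right)
open Vale.Agent.P240.R2.H651 (omI omI_surj OmS)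

universe u

noncomputable section

variable {K : Type u} [Field K] [Fintype K] [StarRing K] {n : ℕ}

lemma hf_sum_right (v : Fin n → K) (c : Fin n → K) (w : Fin n → (Fin n → K)) (s : Finset (Fin n)) :
    hf v (∑ i ∈ s, c i • w i) = ∑ i ∈ s, c i * hf v (w i) := by
  induction s using Finset.induction_on with
  | empty => simp
  | insert a s ha ih => rw [Finset.sum_insert ha, Finset.sum_insert ha, hf_add_right, ih,
      hf_smul_right]

variable (β : MulAut (Om K n))

lemma lm_neg (hs : ∀ x : K, star x = x) (hq : Odd (Nat.card K)) (h7 : 7 ≤ Nat.card K)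
    (hodd : Odd n) : lmM β hs hq h7 hodd (fun _ => -1) = -1 := by
  have h5 : omI K n (rh hs hq hodd (fun _ => -1)) = 1 := by
    apply Subtype.ext
    show SemidirectProduct.inl (QuotientGroup.mk (dl K n (fun _ => -1)) : PGU K n) = 1
    rw [(mk_one_iff hs hq h7 _).2 ⟨-1, dl_neg⟩, map_one]
  have h1 : lm β hs hq h7 hodd (fun _ => -1) = rh hs hq hodd (fun _ => -1) := by
    apply oms_ext hs hq h7 hodd
    · rw [lm_om, h5, map_one]
    · rw [lm_det]
      exact (dl_det _).symm
  show (lm β hs hq h7 hodd (fun _ => -1)).1.1 = -1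
  rw [h1]
  show (dl K n (fun _ => -1)).1 = -1
  rw [dl_neg, neg_one_smul]

theorem exists_frame (hs : ∀ x : K, star x = x) (hq : Odd (Nat.card K)) (h7 : 7 ≤ Nat.card K)
    (hodd : Odd n) (hn : 5 ≤ n) :
    ∃ U : GU K n, ∀ i, (lm β hs hq h7 hodd (sg i)).1 = U * dl K n (sg i) * U⁻¹ := by
  have h2 := H651.two_ne (K := K) hq
  obtain ⟨v, hli, hv⟩ := frame_main (ρ := lmM β hs hq h7 hodd) h2 (lmM_inj β hs hq h7 hodd) hn hodd
    (fun e => lm_det β hs hq h7 hodd e) (lm_neg β hs hq h7 hodd) (fun e e' h h1 => by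
      obtain ⟨y, hy⟩ := lm_conj β hs hq h7 hodd (by omega) h
      exact isR_conj hy h1)
  have hv' : ∀ i j, (lm β hs hq h7 hodd (sg i)).1.1 *ᵥ v j = if j = i then - v j else v j := hv
  have horth : ∀ i j, i ≠ j → hf (v i) (v j) = 0 := by
    intro i j hij
    have h1 := gu_hf (lm β hs hq h7 hodd (sg i)).1 (v i) (v j)
    rw [hv', hv', if_pos rfl, if_neg (Ne.symm hij)] at h1
    have h3 : -v i = (-1 : K) • v i := by simp
    rw [h3, hf_smul_left, hs] at h1
    have h4 : 2 * hf (v i) (v j) = 0 := by linear_combination -h1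
    exact (mul_eq_zero.1 h4).resolve_left h2
  have hnd : ∀ j, hf (v j) (v j) ≠ 0 := by
    intro j hj
    apply hli.ne_zero j
    funext i
    obtain ⟨c, hc⟩ := spans hli (Pi.single i 1)
    have h1 : hf (v j) (Pi.single i 1) = v j i := by
      rw [hf, dotProduct_single_one]
      exact hs _
    rw [← h1, hc, hf_sum_right]
    refine Finset.sum_eq_zero fun s _ => ?_
    by_cases h3 : j = s
    · subst h3
      rw [hj, mul_zero]
    · rw [horth j s h3, mul_zero]
  have h0 : 0 < n := by omega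
  have hY : ∀ i, ∃ y : GU K n, (lm β hs hq h7 hodd (sg i)).1 =
      y * (lm β hs hq h7 hodd (sg ⟨0, h0⟩)).1 * y⁻¹ := fun i =>
    lm_conj β hs hq h7 hodd (by omega) (by rw [wt_sg, wt_sg])
  choose y hy using hY
  set w : Fin n → (Fin n → K) := fun i => (y i).1 *ᵥ v ⟨0, h0⟩ with hw
  set a : K := hf (v ⟨0, h0⟩) (v ⟨0, h0⟩) with ha
  have ha0 : a ≠ 0 := hnd _
  have hwa : ∀ i, hf (w i) (w i) = a := fun i => gu_hf _ _ _
  have hwneg : ∀ i, (lm β hs hq h7 hodd (sg i)).1.1 *ᵥ w i = - w i := by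
    intro i
    rw [hy i, hw]
    show (y i * (lm β hs hq h7 hodd (sg ⟨0, h0⟩)).1 * (y i)⁻¹).1 *ᵥ ((y i).1 *ᵥ v ⟨0, h0⟩) =
      -((y i).1 *ᵥ v ⟨0, h0⟩)
    rw [mulVec_mulVec, ← gmul, inv_mul_cancel_right, gmul, ← mulVec_mulVec, hv', if_pos rfl,
      mulVec_neg]
  have hwv : ∀ i, ∃ c : K, w i = c • v i := by
    intro i
    obtain ⟨c, hc⟩ := spans hli (w i)
    refine ⟨c i, ?_⟩
    have h1 : (lm β hs hq h7 hodd (sg i)).1.1 *ᵥ w i = w i - (2 * c i) • v i := by
      nth_rewrite 1 [hc]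
      rw [Matrix.mulVec_sum]
      have h3 : ∀ s, (lm β hs hq h7 hodd (sg i)).1.1 *ᵥ (c s • v s) =
          c s • v s - (if s = i then (2 * c i) • v i else 0) := by
        intro s
        rw [mulVec_smul, hv']
        split_ifs with h4
        · subst h4
          module
        · simp
      simp only [h3]
      rw [Finset.sum_sub_distrib, ← hc, Finset.sum_ite_eq' Finset.univ,
        if_pos (Finset.mem_univ _)]
    rw [hwneg] at h1
    have h3 : (2 : K) • w i = (2 : K) • (c i • v i) := by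
      have h4 : (2 * c i) • v i = w i + w i := by
        have : (2 * c i) • v i = w i - (w i - (2 * c i) • v i) := by rw [sub_sub_cancel]
        rw [this, ← h1, sub_neg_eq_add]
      rw [two_smul, ← h4, smul_smul]
    exact smul_right_injective _ h2 h3
  choose c hc using hwv
  have hworth : ∀ i j, i ≠ j → hf (w i) (w j) = 0 := by
    intro i j hij
    rw [hc i, hc j, hf_smul_left, hf_smul_right, horth i j hij, mul_zero, mul_zero]
  have hwpos : ∀ i j, j ≠ i → (lm β hs hq h7 hodd (sg i)).1.1 *ᵥ w j = w j := by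
    intro i j hij
    rw [hc j, mulVec_smul, hv', if_neg hij]
  -- the matrix
  set W : Matrix (Fin n) (Fin n) K := Matrix.of fun r i => w i r with hWd
  have hWW : star W * W = a • (1 : Matrix (Fin n) (Fin n) K) := by
    ext i j
    rw [Matrix.mul_apply, Matrix.smul_apply, Matrix.one_apply]
    have h1 : ∑ r, (star W) i r * W r j = hf (w i) (w j) := rfl
    rw [h1]
    by_cases hij : i = j
    · subst hij
      rw [hwa, if_pos rfl, smul_eq_mul, mul_one]
    · rw [hworth i j hij, if_neg hij, smul_zero]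
  have hdet : W.det * W.det = a ^ n := by
    have h1 := congrArg Matrix.det hWW
    rw [det_mul, star_eq_conjTranspose, det_conjTranspose, hs, det_smul, det_one, mul_one,
      Fintype.card_fin] at h1
    exact h1
  obtain ⟨m, hm⟩ := hodd
  obtain ⟨d, hd⟩ : ∃ d : K, d * d = a := by
    refine ⟨W.det / a ^ m, ?_⟩
    rw [div_mul_div_comm, hdet, hm]
    field_simp
    ring
  have hd0 : d ≠ 0 := fun h => ha0 (by rw [← hd, h, mul_zero])
  have hU : d⁻¹ • W ∈ unitaryGroup (Fin n) K := by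
    rw [mem_unitaryGroup_iff', star_smul, hs, Matrix.smul_mul, Matrix.mul_smul, hWW, smul_smul,
      smul_smul, ← hd]
    have : d⁻¹ * d⁻¹ * (d * d) = 1 := by field_simp
    rw [this, one_smul]
  refine ⟨⟨d⁻¹ • W, hU⟩, fun i => ?_⟩
  rw [eq_mul_inv_iff_mul_eq]
  apply Subtype.ext
  rw [gmul, gmul]
  show (lm β hs hq h7 _ (sg i)).1.1 * (d⁻¹ • W) = (d⁻¹ • W) * (dl K n (sg i)).1
  rw [Matrix.mul_smul, Matrix.smul_mul]
  congr 1
  ext r j
  rw [dl_coe, Matrix.mul_diagonal, Matrix.mul_apply]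
  have h1 : ∑ k, (lm β hs hq h7 ⟨m, hm⟩ (sg i)).1.1 r k * W k j =
      ((lm β hs hq h7 ⟨m, hm⟩ (sg i)).1.1 *ᵥ w j) r := rfl
  rw [h1]
  by_cases hij : j = i
  · subst hij
    rw [hwneg]
    simp [sg, hWd]
  · rw [hwpos i j hij]
    simp [sg, hWd, hij]

end

end Vale.Agent.P240.R2.H329
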