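import Vale.Agent.P240.R2.H329.OA5
import Vale.Agent.P240.R2.H329.Abs
import Vale.Agent.P240.H195.Few
import Mathlib.FieldTheory.Finite.GaloisField

/-!
P240: the automorphisms of `Ω_n(q)`, `n` odd, are induced by `PΓO_n(q)`; `FewAut p` for odd `p`.
-/

set_option autoImplicit false
set_option linter.unusedSectionVars false

namespace Vale.Agent.P240.R2.H329

open Matrix Vale.Agent.P240.R2.AS Subgroup Vale.Agent.P240.H195
open Vale.Agent.P240.R2.H296.O (ab ab_eq_one gu_hf rf ab_rf rf_smul Rg Rg_top)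
open Vale.Agent.P240.R2.H387 (hf hf_add_left hf_add_right hf_smul_left hf_smul_right hf_zero_left
  hf_zero_right pr)
open Vale.Agent.P240.R2.H651 (omI omI_surj OmS)

universe u v

noncomputable section

variable {K : Type u} [Field K] [Fintype K] [StarRing K] {n : ℕ}

lemma om_right {x : PGamU K n} (hx : x ∈ Om K n) : x.right = 1 := by
  obtain ⟨z, -, rfl⟩ := Subgroup.mem_map.1 hx
  rfl

instance om_normal : (Om K n).Normal := by
  constructor
  intro x hx g
  obtain ⟨z, hz, rfl⟩ := Subgroup.mem_map.1 hx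
  have h1 : act n g.right z ∈ commutator (PGU K n) := by
    have h3 := (Subgroup.characteristic_iff_map_eq (H := commutator (PGU K n))).1 inferInstance
      (act n g.right)
    rw [← h3]
    exact Subgroup.mem_map.2 ⟨z, hz, rfl⟩
  have h2 : (SemidirectProduct.inl (act n g.right z) : PGamU K n) =
      SemidirectProduct.inr g.right * SemidirectProduct.inl z * SemidirectProduct.inr (g.right)⁻¹ :=
    SemidirectProduct.inl_aut _ _
  have h4 : g * SemidirectProduct.inl z * g⁻¹ =
      SemidirectProduct.inl (g.left * act n g.right z * g.left⁻¹) := by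
    conv_lhs => rw [← SemidirectProduct.inl_left_mul_inr_right g]
    rw [map_mul, map_mul, h2, map_inv, map_inv]
    group
  rw [h4]
  exact Subgroup.mem_map.2 ⟨_, (inferInstance : (commutator (PGU K n)).Normal).conj_mem _ h1 _, rfl⟩

/-- **Automorphisms of `Ω_n(q)`**, `n ≥ 5` odd, `q ≥ 7` odd: all are induced by `PΓO_n(q)`. -/
theorem aut_Om (hs : ∀ x : K, star x = x) (hq : Odd (Nat.card K)) (h7 : 7 ≤ Nat.card K)
    (hodd : Odd n) (hn : 5 ≤ n) (β : MulAut (Om K n)) :
    ∃ y : PGamU K n, ∀ x : Om K n, ((β x : Om K n) : PGamU K n) = y * x * y⁻¹ := by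
  obtain ⟨U, hU⟩ := exists_frame β hs hq h7 hodd hn
  set y₀ : PGamU K n := SemidirectProduct.inl (QuotientGroup.mk U) with hy₀
  let β' : MulAut (Om K n) := MulAut.conjNormal y₀⁻¹ * β
  have hβ' : ∀ x : Om K n, ((β' x : Om K n) : PGamU K n) = y₀⁻¹ * (β x : Om K n) * y₀ := by
    intro x
    show ((MulAut.conjNormal y₀⁻¹ (β x) : Om K n) : PGamU K n) = _
    rw [MulAut.conjNormal_apply, inv_inv]
  obtain ⟨y, hy⟩ := H651.stmtO6c K hs hq h7 n hodd hn β' (by
    intro P i x hP hx
    have h1 : P = H651.E i := Subtype.ext hP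
    have h2 : x = omI K n (rh hs hq hodd (sg i)) := by
      apply Subtype.ext
      rw [hx, h1]
      show _ = SemidirectProduct.inl (QuotientGroup.mk (dl K n (sg i)) : PGU K n)
      rw [dl_sg]
      rfl
    apply Subtype.ext
    rw [hβ', h2, ← lm_om β hs hq h7 hodd]
    show y₀⁻¹ * SemidirectProduct.inl (QuotientGroup.mk (lm β hs hq h7 hodd (sg i)).1 : PGU K n) *
      y₀ = SemidirectProduct.inl (QuotientGroup.mk (dl K n (sg i)) : PGU K n)
    rw [hU i, hy₀, ← map_inv, ← map_mul, ← map_mul]
    congr 1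
    rw [QuotientGroup.mk_mul, QuotientGroup.mk_mul, QuotientGroup.mk_inv]
    group)
  refine ⟨y₀ * y, fun x => ?_⟩
  have h1 := hy x
  rw [hβ'] at h1
  have h3 : ((β x : Om K n) : PGamU K n) = y₀ * (y₀⁻¹ * (β x : Om K n) * y₀) * y₀⁻¹ := by group
  rw [h3, h1]
  group

/-- the commutator quotient of `O_n(q) / {1, -1}` has order at most two -/
theorem ab_two (hs : ∀ x : K, star x = x) (hq : Odd (Nat.card K)) (hodd : Odd n) :
    ∃ t : Abelianization (PGU K n), t * t = 1 ∧ ∀ g : GU K n, ab K n g = 1 ∨ ab K n g = t := by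
  classical
  have h2 := H651.two_ne (K := K) hq
  have hsq : ∀ v : Fin n → K, hf v v ≠ 0 → IsSquare (hf v v) → ab K n (rf v) = 1 := by
    rintro v hv ⟨c, hc⟩
    have hc0 : c ≠ 0 := fun h => hv (by rw [hc, h, mul_zero])
    have h1 : hf (c⁻¹ • v) (c⁻¹ • v) = 1 := by
      rw [hf_smul_left, hf_smul_right, hs, hc]
      field_simp
    rw [← rf_smul (inv_ne_zero hc0) v, ab_eq_one]
    let P : Ln K n := ⟨vecMulVec (c⁻¹ • v) (star (c⁻¹ • v)), c⁻¹ • v, h1, rfl⟩
    have h3 := H221.stmtB3 K hs hq n hodd [P] (by simp [Orth])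
    have h4 : sm [P] = pr (c⁻¹ • v) := by
      rw [H221.sm_cons', sm]
      simp only [List.map_nil, List.sum_nil, add_zero]
      show vecMulVec (c⁻¹ • v) (star (c⁻¹ • v)) = (hf (c⁻¹ • v) (c⁻¹ • v))⁻¹ • _
      rw [h1, inv_one, one_smul]
    have h5 : eW (-1) [P] = (QuotientGroup.mk (rf (c⁻¹ • v)) : PGU K n) := by
      rw [eW, h4]
      rfl
    rwa [← h5]
  by_cases hex : ∃ v0 : Fin n → K, hf v0 v0 ≠ 0 ∧ ¬ IsSquare (hf v0 v0)
  · obtain ⟨v0, hv0, hns⟩ := hex
    refine ⟨ab K n (rf v0), ?_, fun g => ?_⟩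
    · rw [← map_mul]
      have h1 : rf v0 * rf v0 = 1 := by
        apply Subtype.ext
        have hid : pr v0 * pr v0 = pr v0 := H387.pr_idem hv0
        rw [gmul, H296.O.rf_coe hv0]
        show _ = (1 : Matrix (Fin n) (Fin n) K)
        rw [add_mul, mul_add, mul_add, one_mul, mul_one, one_mul, smul_mul_smul_comm, hid]
        module
      rw [h1, map_one]
    · have hg : g ∈ Rg K n := by rw [Rg_top hs h2]; trivial
      have htt : ab K n (rf v0) * ab K n (rf v0) = 1 := by
        rw [← map_mul]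
        have h1 : rf v0 * rf v0 = 1 := by
          apply Subtype.ext
          have hid : pr v0 * pr v0 = pr v0 := H387.pr_idem hv0
          rw [gmul, H296.O.rf_coe hv0]
          show _ = (1 : Matrix (Fin n) (Fin n) K)
          rw [add_mul, mul_add, mul_add, one_mul, mul_one, one_mul, smul_mul_smul_comm, hid]
          module
        rw [h1, map_one]
      refine Subgroup.closure_induction
        (p := fun g _ => ab K n g = 1 ∨ ab K n g = ab K n (rf v0)) ?_ ?_ ?_ ?_ hg
      · rintro _ ⟨v, hv, rfl⟩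
        by_cases h3 : IsSquare (hf v v)
        · exact Or.inl (hsq v hv h3)
        · right
          obtain ⟨c, hc⟩ : IsSquare (hf v v * hf v0 v0) := by
            have hc : ringChar K ≠ 2 := by
              intro h
              apply h2
              have := ringChar.spec K 2
              rw [h] at this
              exact_mod_cast this.2 dvd_rfl
            rw [FiniteField.isSquare_iff hc hv] at h3
            rw [FiniteField.isSquare_iff hc hv0] at hns
            rw [FiniteField.isSquare_iff hc (mul_ne_zero hv hv0), mul_pow]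
            have e1 := (FiniteField.pow_dichotomy hc hv).resolve_left h3
            have e2 := (FiniteField.pow_dichotomy hc hv0).resolve_left hns
            rw [e1, e2]
            ring
          have hc0 : c ≠ 0 := fun h => mul_ne_zero hv hv0 (by rw [hc, h, mul_zero])
          have h5 : hf ((c⁻¹ * hf v0 v0) • v) ((c⁻¹ * hf v0 v0) • v) = hf v0 v0 := by
            rw [hf_smul_left, hf_smul_right, hs]
            field_simp
            linear_combination hc
          rw [← rf_smul (mul_ne_zero (inv_ne_zero hc0) hv0) v]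
          exact ab_rf hs h2 h5 (by rw [h5]; exact hv0)
      · exact Or.inl (map_one _)
      · rintro x y - - (hx | hx) (hy | hy)
        · left; rw [map_mul, hx, hy, one_mul]
        · right; rw [map_mul, hx, hy, one_mul]
        · right; rw [map_mul, hx, hy, mul_one]
        · left; rw [map_mul, hx, hy, htt]
      · rintro x - (hx | hx)
        · left; rw [map_inv, hx, inv_one]
        · right
          rw [map_inv, hx]
          exact inv_eq_of_mul_eq_one_left htt
  · refine ⟨1, one_mul 1, fun g => ?_⟩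
    left
    have hg : g ∈ Rg K n := by rw [Rg_top hs h2]; trivial
    refine Subgroup.closure_induction (p := fun g _ => ab K n g = 1) ?_ ?_ ?_ ?_ hg
    · rintro _ ⟨v, hv, rfl⟩
      refine hsq v hv ?_
      by_contra h3
      exact hex ⟨v, hv, h3⟩
    · exact map_one _
    · intro x y _ _ hx hy
      rw [map_mul, hx, hy, one_mul]
    · intro x _ hx
      rw [map_inv, hx, inv_one]

/-- the automorphisms induced by `PΓO_n(q)` -/
def RO (K : Type u) [Field K] [Fintype K] [StarRing K] (n : ℕ) :
    Subgroup (MulAut (Om K n) × SA K) where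
  carrier := {z | ∃ g : PGamU K n, g.right = z.2 ∧
    ∀ x : Om K n, ((z.1 x : Om K n) : PGamU K n) = g * x * g⁻¹}
  mul_mem' := by
    rintro ⟨f, σ⟩ ⟨f', τ⟩ ⟨g, hg, h⟩ ⟨g', hg', h'⟩
    refine ⟨g * g', by rw [SemidirectProduct.mul_right, hg, hg']; rfl, fun x => ?_⟩
    show ((f (f' x) : Om K n) : PGamU K n) = _
    have h1 := h (f' x)
    have h2 := h' x
    simp only at h1 h2
    rw [h1, h2]
    group
  one_mem' := ⟨1, rfl, fun x => by simp⟩
  inv_mem' := by
    rintro ⟨f, σ⟩ ⟨g, hg, h⟩
    refine ⟨g⁻¹, by rw [SemidirectProduct.inv_right, hg]; rfl, fun x => ?_⟩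
    have h1 := h (f⁻¹ x)
    simp only at h1
    rw [MulAut.apply_inv_self] at h1
    show ((f⁻¹ x : Om K n) : PGamU K n) = _
    rw [h1]
    group

/-- the automorphism group of a finite field is cyclic -/
lemma ring_cyc (K : Type u) [Field K] [Finite K] : IsCyclic (RingAut K) := by
  obtain ⟨l, hl⟩ := CharP.exists K
  have : Fact l.Prime := ⟨CharP.char_is_prime K l⟩
  let _ : Algebra (ZMod l) K := ZMod.algebra K l
  let f : (K ≃ₐ[ZMod l] K) →* RingAut K :=
    { toFun := fun s => s.toRingEquiv
      map_one' := rfl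
      map_mul' := fun _ _ => rfl }
  refine isCyclic_of_surjective f fun s => ?_
  refine ⟨AlgEquiv.ofRingEquiv (f := s) fun x => ?_, ?_⟩
  · obtain ⟨k, rfl⟩ := ZMod.intCast_surjective x
    simp
  · ext x
    rfl

/-- **`FewAut p` for `Ω_n(q)`**, `p` an odd prime, `n ≥ 5` odd, `q ≥ 7` odd. -/
theorem fewAut_Om {p : ℕ} (hp : p.Prime) (hp2 : p ≠ 2) (hs : ∀ x : K, star x = x)
    (hq : Odd (Nat.card K)) (h7 : 7 ≤ Nat.card K) (hodd : Odd n) (hn : 5 ≤ n) :
    FewAut p (Om K n) := by
  have : Fact p.Prime := ⟨hp⟩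
  have : Finite (Om K n) := Finite.of_surjective (omI K n) omI_surj
  have : Finite (MulAut (Om K n)) :=
    Finite.of_injective (fun f : MulAut (Om K n) => (f : Om K n → Om K n)) DFunLike.coe_injective
  have hcyc : IsCyclic (RingAut K) := ring_cyc K
  have hcyc' : IsCyclic (SA K) := inferInstance
  have hN : ((MulAut.conj (G := Om K n)).range).Normal := by
    constructor
    rintro _ ⟨s, rfl⟩ f
    refine ⟨f s, MulEquiv.ext fun x => ?_⟩
    show f s * x * (f s)⁻¹ = f (s * f⁻¹ x * s⁻¹)
    rw [map_mul, map_mul, map_inv, MulAut.apply_inv_self]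
  obtain ⟨t, ht, hab⟩ := ab_two (n := n) hs hq hodd
  have key : ∀ f g : MulAut (Om K n), OutAut p f → OutAut p g →
      g ∈ zpowers f ⊔ (MulAut.conj (G := Om K n)).range := by
    intro f g hf hg
    refine mem_sup_of (C := SA K) _ (RO K n) ?_ ?_ ?_ hp2 hf.1 hg.1 hf.2
    · rintro _ ⟨s, rfl⟩
      exact ⟨s.1, om_right s.2, fun x => rfl⟩
    · intro f
      obtain ⟨y, hy⟩ := aut_Om hs hq h7 hodd hn f
      exact ⟨y.right, y, rfl, hy⟩
    · rintro x y ⟨a, ha, hx⟩ ⟨b, hb, hy⟩ hxI hyI
      have hI : ∀ (z : MulAut (Om K n)) (c : PGamU K n), c ∈ Om K n →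
          (∀ x : Om K n, ((z x : Om K n) : PGamU K n) = c * x * c⁻¹) →
          z ∈ (MulAut.conj (G := Om K n)).range := by
        intro z c hc hz
        refine ⟨⟨c, hc⟩, MulEquiv.ext fun x => Subtype.ext ?_⟩
        rw [hz x]
        rfl
      have hleft : ∀ c : PGamU K n, c.right = 1 → ∃ g : GU K n,
          c = SemidirectProduct.inl (QuotientGroup.mk g) := by
        intro c hc
        obtain ⟨g, hg⟩ := QuotientGroup.mk_surjective c.left
        refine ⟨g, ?_⟩
        rw [hg]
        conv_lhs => rw [← SemidirectProduct.inl_left_mul_inr_right c, hc, map_one, mul_one]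
      obtain ⟨a', rfl⟩ := hleft a ha
      obtain ⟨b', rfl⟩ := hleft b hb
      have hmem : ∀ c : GU K n, ab K n c = 1 →
          (SemidirectProduct.inl (QuotientGroup.mk c) : PGamU K n) ∈ Om K n := fun c hc =>
        Subgroup.mem_map.2 ⟨_, ab_eq_one.1 hc, rfl⟩
      have h1 : ab K n a' = t := (hab a').resolve_left fun h => hxI (hI x _ (hmem _ h) hx)
      have h3 : ab K n b' = t := (hab b').resolve_left fun h => hyI (hI y _ (hmem _ h) hy)
      refine hI (x * y) (SemidirectProduct.inl (QuotientGroup.mk (a' * b'))) (hmem _ ?_) ?_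
      · rw [map_mul, h1, h3, ht]
      · intro z
        show ((x (y z) : Om K n) : PGamU K n) = _
        have h4 := hx (y z)
        have h5 := hy z
        simp only at h4 h5
        rw [h4, h5, QuotientGroup.mk_mul, map_mul]
        group
  exact ⟨fun f g _ hf hg _ => Or.inl (key f g hf hg), Or.inl fun f g hf hg => key f g hf hg⟩

/-- the same for every group isomorphic to `Ω_n(q)` -/
theorem fewAut_Omega {p : ℕ} (hp : p.Prime) (hp2 : p ≠ 2) (hs : ∀ x : K, star x = x)
    (hq : Odd (Nat.card K)) (h7 : 7 ≤ Nat.card K) (hodd : Odd n) (hn : 5 ≤ n) {L : Type v}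
    [Group L] (e : L ≃* ↥(commutator (PGU K n))) : FewAut p L := by
  let f : ↥(commutator (PGU K n)) ≃* Om K n :=
    (commutator (PGU K n)).equivMapOfInjective SemidirectProduct.inl
      SemidirectProduct.inl_injective
  exact (fewAut_Om hp hp2 hs hq h7 hodd hn).congr (e.trans f).symm

end

end Vale.Agent.P240.R2.H329
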