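import Vale.Agent.P240.R2.H387.PSU7
import Vale.Agent.P240.R2.H487.TF

/-!
P240, unitary groups: the family `PSU_n(q)` for a prime `p` dividing `q + 1`.
-/

set_option autoImplicit false

namespace Vale.Agent.P240.R2.H329

open Vale.Agent.P240.R2.H487 (LocTopF TopFac)

universe u v

/-- `L` is isomorphic to `PSU_n(q)`, where `n ≥ 3`, `q ≥ 3`, `p` divides `(q + 1) / gcd(n, q + 1)`,
`(p, q) ≠ (3, 8)`, and, if `p = 2`, `n` is odd and `q ≥ 7` -/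
def PSUFacT (p : ℕ) (L : Type u) [Group L] : Prop :=
  ∃ (n q : ℕ) (K : Type) (_ : Field K) (_ : Fintype K) (_ : StarRing K), Nat.card K = q ^ 2 ∧
    (∀ x : K, star x = x ^ q) ∧ 3 ≤ n ∧ 3 ≤ q ∧ p * n.gcd (q + 1) ∣ q + 1 ∧ ¬ (p = 3 ∧ q = 8) ∧
    (p = 2 → Odd n ∧ 7 ≤ q) ∧ Nonempty (L ≃* ↥(AS.PSU K n))

theorem PSUFacT.topFac (𝕜 : Type v) [Field 𝕜] {p : ℕ} [Fact p.Prime] {L : Type u} [Group L]
    (h : PSUFacT p L) : TopFac 𝕜 p L := by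
  obtain ⟨n, q, K, hF1, hF2, hF3, hK, hs, hn, hq, hpn, h38, h2, ⟨e⟩⟩ := h
  intro G _ _ M ⟨f⟩
  exact H387.locTopF_PSU7 𝕜 hn hq hK hs hpn h38 h2 ⟨f.symm.trans e⟩

end Vale.Agent.P240.R2.H329
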